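import Mathlib

/-!
# Areas of planar pieces in `ℝ³` via `μHE[2]`

`area_image`: the Euclidean Hausdorff measure of an affine image of a planar set.
-/

set_option autoImplicit false
open MeasureTheory
open scoped ENNReal

namespace Crest.Agent.Lib.Tetra

abbrev E3 := EuclideanSpace ℝ (Fin 3)
abbrev E2 := EuclideanSpace ℝ (Fin 2)

/-- The area of the parallelogram spanned by `a` and `b`. -/
noncomputable def gram (a b : E3) : ℝ :=
  Real.sqrt (‖a‖ ^ 2 * ‖b‖ ^ 2 - (inner ℝ a b) ^ 2)

theorem gram_nonneg (a b : E3) : 0 ≤ gram a b := Real.sqrt_nonneg _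

instance : Fact (Module.finrank ℝ E3 = 2 + 1) := ⟨by simp⟩

/-- Every pair of vectors of `ℝ³` lies in the range of a linear isometry from `ℝ²`. -/
theorem exists_isometry_range (a b : E3) :
    ∃ (ι : E2 →ₗᵢ[ℝ] E3) (a' b' : E2), ι a' = a ∧ ι b' = b := by
  classical
  set S : Submodule ℝ E3 := Submodule.span ℝ ({a, b} : Set E3) with hS
  have hfr : Module.finrank ℝ S ≤ 2 := by
    have h := finrank_span_finset_le_card (R := ℝ) (({a, b} : Finset E3))
    have hc : (({a, b} : Finset E3)).card ≤ 2 := Finset.card_le_two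
    have h' : Module.finrank ℝ S = Set.finrank ℝ ((({a, b} : Finset E3)) : Set E3) := by
      have : ((({a, b} : Finset E3)) : Set E3) = {a, b} := by simp
      rw [this, Set.finrank, hS]
    omega
  have hne : S ≠ ⊤ := by
    intro h
    have : Module.finrank ℝ S = 3 := by
      rw [h]; simp
    omega
  have hne' : Sᗮ ≠ ⊥ := by
    rw [Ne, Submodule.orthogonal_eq_bot_iff]
    exact hne
  obtain ⟨n, hn, hn0⟩ := Submodule.exists_mem_ne_zero_of_ne_bot hne'
  set W : Submodule ℝ E3 := (ℝ ∙ n)ᗮ with hW
  have hWfr : Module.finrank ℝ W = 2 := Submodule.finrank_orthogonal_span_singleton hn0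
  let e : W ≃ₗᵢ[ℝ] E2 :=
    ((stdOrthonormalBasis ℝ W).reindex (finCongr hWfr)).repr
  have haW : a ∈ W := by
    rw [hW, Submodule.mem_orthogonal_singleton_iff_inner_right]
    have : a ∈ S := Submodule.subset_span (by simp)
    rw [real_inner_comm]
    exact (Submodule.mem_orthogonal S n).1 hn a this
  have hbW : b ∈ W := by
    rw [hW, Submodule.mem_orthogonal_singleton_iff_inner_right]
    have : b ∈ S := Submodule.subset_span (by simp)
    rw [real_inner_comm]
    exact (Submodule.mem_orthogonal S n).1 hn b this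
  refine ⟨W.subtypeₗᵢ.comp e.symm.toLinearIsometry, e ⟨a, haW⟩, e ⟨b, hbW⟩, ?_, ?_⟩ <;> simp

theorem norm_sq_E2 (z : E2) : ‖z‖ ^ 2 = z 0 ^ 2 + z 1 ^ 2 := by
  rw [EuclideanSpace.norm_sq_eq]
  simp [Fin.sum_univ_two]

theorem inner_E2 (z w : E2) : inner ℝ z w = z 0 * w 0 + z 1 * w 1 := by
  simp [PiLp.inner_apply, Fin.sum_univ_two]
  ring

/-- Affine area formula in `ℝ³`. -/
theorem area_image (a b c : E3) (S : Set E2) :
    μHE[2] ((fun z : E2 => c + (z 0) • a + (z 1) • b) '' S) =
      ENNReal.ofReal (gram a b) * volume S := by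
  classical
  obtain ⟨ι, a', b', rfl, rfl⟩ := exists_isometry_range a b
  -- the linear map `z ↦ z 0 • a' + z 1 • b'`
  let L : E2 →ₗ[ℝ] E2 :=
    { toFun := fun z => (z 0) • a' + (z 1) • b'
      map_add' := by
        intro x y
        simp only [PiLp.add_apply, add_smul]
        abel
      map_smul' := by
        intro r x
        simp only [PiLp.smul_apply, smul_eq_mul, mul_smul, RingHom.id_apply, smul_add] }
  have hiso : Isometry (fun w : E2 => c + ι w) := by
    have h1 : Isometry (fun w : E3 => c + w) := isometry_add_left c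
    exact h1.comp ι.isometry
  have himg : (fun z : E2 => c + (z 0) • ι a' + (z 1) • ι b') '' S =
      (fun w : E2 => c + ι w) '' (L '' S) := by
    rw [Set.image_image]
    refine Set.image_congr fun z _ => ?_
    simp only [L, LinearMap.coe_mk, AddHom.coe_mk, map_add, map_smul]
    abel
  rw [himg, hiso.euclideanHausdorffMeasure_image,
    EuclideanSpace.euclideanHausdorffMeasure_eq_volume, Measure.addHaar_image_linearMap]
  congr 2
  -- determinant
  have hdet : LinearMap.det L = a' 0 * b' 1 - a' 1 * b' 0 := by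
    rw [← LinearMap.det_toMatrix (EuclideanSpace.basisFun (Fin 2) ℝ).toBasis L, Matrix.det_fin_two]
    simp [LinearMap.toMatrix_apply, L]
    ring
  rw [hdet, gram, ι.norm_map, ι.norm_map, ι.inner_map_map, norm_sq_E2, norm_sq_E2, inner_E2]
  rw [← Real.sqrt_sq_eq_abs]
  congr 1
  ring

/-- The closed unit square of `ℝ²`. -/
def unitSquare : Set E2 := {z | z 0 ∈ Set.Icc (0 : ℝ) 1 ∧ z 1 ∈ Set.Icc (0 : ℝ) 1}

/-- The open unit square of `ℝ²`. -/
def openUnitSquare : Set E2 := {z | z 0 ∈ Set.Ioo (0 : ℝ) 1 ∧ z 1 ∈ Set.Ioo (0 : ℝ) 1}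

/-- The standard closed triangle of `ℝ²`. -/
def unitTri : Set E2 := {z | 0 ≤ z 0 ∧ 0 ≤ z 1 ∧ z 0 + z 1 ≤ 1}

/-- The coordinates on `E2`, as a measure preserving map to the product. -/
noncomputable def toProd : E2 → ℝ × ℝ := fun z => (z 0, z 1)

theorem toProd_mp : MeasurePreserving toProd volume volume := by
  have h1 : MeasurePreserving (fun z : E2 => z.ofLp) volume volume :=
    EuclideanSpace.volume_preserving_symm_measurableEquiv_toLp (Fin 2)
  have h2 := volume_preserving_finTwoArrow ℝ
  exact h2.comp h1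

theorem volume_preimage_toProd {T : Set (ℝ × ℝ)} (hT : MeasurableSet T) :
    volume (toProd ⁻¹' T) = volume T :=
  toProd_mp.measure_preimage hT.nullMeasurableSet

theorem volume_unitSquare : volume unitSquare = 1 := by
  have : unitSquare = toProd ⁻¹' (Set.Icc (0 : ℝ) 1 ×ˢ Set.Icc (0 : ℝ) 1) := by
    ext z; simp [unitSquare, toProd]; tauto
  rw [this, volume_preimage_toProd (measurableSet_Icc.prod measurableSet_Icc),
    Measure.volume_eq_prod, Measure.prod_prod]
  simp

theorem volume_openUnitSquare : volume openUnitSquare = 1 := by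
  have : openUnitSquare = toProd ⁻¹' (Set.Ioo (0 : ℝ) 1 ×ˢ Set.Ioo (0 : ℝ) 1) := by
    ext z; simp [openUnitSquare, toProd]
  rw [this, volume_preimage_toProd (measurableSet_Ioo.prod measurableSet_Ioo),
    Measure.volume_eq_prod, Measure.prod_prod]
  simp

theorem volume_unitTri : volume unitTri = ENNReal.ofReal (1 / 2) := by
  have hset : unitTri = toProd ⁻¹' {p : ℝ × ℝ | 0 ≤ p.1 ∧ 0 ≤ p.2 ∧ p.1 + p.2 ≤ 1} := by
    ext z; simp [unitTri, toProd]
  have hmeas : MeasurableSet {p : ℝ × ℝ | 0 ≤ p.1 ∧ 0 ≤ p.2 ∧ p.1 + p.2 ≤ 1} := by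
    apply IsClosed.measurableSet
    refine IsClosed.inter (isClosed_le continuous_const continuous_fst) ?_
    refine IsClosed.inter (isClosed_le continuous_const continuous_snd) ?_
    exact isClosed_le (continuous_fst.add continuous_snd) continuous_const
  rw [hset, volume_preimage_toProd hmeas, Measure.volume_eq_prod, Measure.prod_apply hmeas]
  have hsec : ∀ x : ℝ, volume (Prod.mk x ⁻¹' {p : ℝ × ℝ | 0 ≤ p.1 ∧ 0 ≤ p.2 ∧ p.1 + p.2 ≤ 1}) =
      (Set.Icc (0 : ℝ) 1).indicator (fun x => ENNReal.ofReal (1 - x)) x := by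
    intro x
    by_cases hx : x ∈ Set.Icc (0 : ℝ) 1
    · rw [Set.indicator_of_mem hx]
      have : Prod.mk x ⁻¹' {p : ℝ × ℝ | 0 ≤ p.1 ∧ 0 ≤ p.2 ∧ p.1 + p.2 ≤ 1} = Set.Icc 0 (1 - x) := by
        ext y
        simp only [Set.mem_preimage, Set.mem_setOf_eq, Set.mem_Icc]
        constructor
        · rintro ⟨_, h2, h3⟩; exact ⟨h2, by linarith⟩
        · rintro ⟨h2, h3⟩; exact ⟨hx.1, h2, by linarith⟩
      rw [this, Real.volume_Icc]
      congr 1; ring
    · rw [Set.indicator_of_notMem hx]
      have : Prod.mk x ⁻¹' {p : ℝ × ℝ | 0 ≤ p.1 ∧ 0 ≤ p.2 ∧ p.1 + p.2 ≤ 1} = ∅ := by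
        ext y
        simp only [Set.mem_preimage, Set.mem_setOf_eq, Set.mem_empty_iff_false, iff_false]
        rintro ⟨h1, h2, h3⟩
        exact hx ⟨h1, by linarith⟩
      rw [this]; simp
  simp_rw [hsec]
  rw [lintegral_indicator measurableSet_Icc]
  have hint : ∫⁻ x in Set.Icc (0 : ℝ) 1, ENNReal.ofReal (1 - x) = ENNReal.ofReal (∫ x in Set.Icc (0 : ℝ) 1, (1 - x)) := by
    rw [ofReal_integral_eq_lintegral_ofReal]
    · have : Continuous fun x : ℝ => (1 - x) := by fun_prop
      exact this.continuousOn.integrableOn_Icc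
    · filter_upwards [ae_restrict_mem measurableSet_Icc] with x hx
      simpa using hx.2
  rw [hint, MeasureTheory.integral_Icc_eq_integral_Ioc, ← intervalIntegral.integral_of_le zero_le_one]
  congr 1
  rw [intervalIntegral.integral_sub (by simp) (by simp)]
  simp
  norm_num

/-- The closed parallelogram as an image of the unit square. -/
theorem parallelogram_eq_image (c a b : E3) :
    {x : E3 | ∃ s ∈ Set.Icc (0 : ℝ) 1, ∃ t ∈ Set.Icc (0 : ℝ) 1, x = c + s • a + t • b} =
      (fun z : E2 => c + (z 0) • a + (z 1) • b) '' unitSquare := by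
  ext x
  simp only [Set.mem_setOf_eq, Set.mem_image, unitSquare]
  constructor
  · rintro ⟨s, hs, t, ht, rfl⟩
    refine ⟨!₂[s, t], ⟨by simpa using hs, by simpa using ht⟩, by simp⟩
  · rintro ⟨z, ⟨h0, h1⟩, rfl⟩
    exact ⟨z 0, h0, z 1, h1, rfl⟩

theorem area_parallelogram (c a b : E3) :
    μHE[2] {x : E3 | ∃ s ∈ Set.Icc (0 : ℝ) 1, ∃ t ∈ Set.Icc (0 : ℝ) 1, x = c + s • a + t • b} =
      ENNReal.ofReal (gram a b) := by
  rw [parallelogram_eq_image, area_image, volume_unitSquare, mul_one]

/-- The convex hull of three points as an image of the standard triangle. -/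
theorem convexHull_three_eq_image (p q r : E3) :
    convexHull ℝ ({p, q, r} : Set E3) =
      (fun z : E2 => p + (z 0) • (q - p) + (z 1) • (r - p)) '' unitTri := by
  apply Set.Subset.antisymm
  · apply convexHull_min
    · intro x hx
      simp only [Set.mem_insert_iff, Set.mem_singleton_iff] at hx
      rcases hx with rfl | rfl | rfl
      · refine ⟨!₂[0, 0], by simp [unitTri], by simp⟩
      · refine ⟨!₂[1, 0], by simp [unitTri], by simp⟩
      · refine ⟨!₂[0, 1], by simp [unitTri], by simp⟩
    · have hconv : Convex ℝ unitTri := by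
        intro x hx y hy α β hα hβ hαβ
        simp only [unitTri, Set.mem_setOf_eq, PiLp.add_apply, PiLp.smul_apply, smul_eq_mul] at hx hy ⊢
        obtain ⟨h1, h2, h3⟩ := hx
        obtain ⟨h4, h5, h6⟩ := hy
        refine ⟨by positivity, by positivity, ?_⟩
        nlinarith
      have hlin : IsLinearMap ℝ (fun z : E2 => (z 0) • (q - p) + (z 1) • (r - p)) := by
        constructor
        · intro x y
          simp only [PiLp.add_apply, add_smul]
          abel
        · intro k x
          simp only [PiLp.smul_apply, smul_eq_mul, mul_smul, smul_add]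
      have h1 := (hconv.is_linear_image hlin).translate p
      convert h1 using 1
      ext x
      simp only [Set.mem_image, exists_exists_and_eq_and, add_assoc]
  · rintro x ⟨z, ⟨h0, h1, h2⟩, rfl⟩
    have hC := convex_convexHull ℝ ({p, q, r} : Set E3)
    have hp : p ∈ convexHull ℝ ({p, q, r} : Set E3) := subset_convexHull _ _ (by simp)
    have hq : q ∈ convexHull ℝ ({p, q, r} : Set E3) := subset_convexHull _ _ (by simp)
    have hr : r ∈ convexHull ℝ ({p, q, r} : Set E3) := subset_convexHull _ _ (by simp)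
    have := hC.sum_mem (t := Finset.univ) (w := ![1 - z 0 - z 1, z 0, z 1]) (z := ![p, q, r])
      (by
        intro i _
        fin_cases i
        · simp; linarith
        · simpa using h0
        · simpa using h1)
      (by simp [Fin.sum_univ_three]; ring)
      (by
        intro i _
        fin_cases i
        · simpa using hp
        · simpa using hq
        · simpa using hr)
    convert this using 1
    simp only [Fin.sum_univ_three, Matrix.cons_val_zero, Matrix.cons_val_one, Matrix.cons_val]
    simp only [sub_smul, smul_sub, one_smul]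
    abel

/-- Area of a triangle. -/
theorem area_triangle (p q r : E3) :
    μHE[2] (convexHull ℝ ({p, q, r} : Set E3)) = ENNReal.ofReal (gram (q - p) (r - p) / 2) := by
  rw [convexHull_three_eq_image, area_image, volume_unitTri, ← ENNReal.ofReal_mul (gram_nonneg _ _)]
  congr 1
  ring

end Crest.Agent.Lib.Tetra
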