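import Crest.Agent.Lib.Tetra.CertData

/-! Kernel evaluation of the certificate. -/

set_option autoImplicit false

namespace Crest.Agent.Lib.Tetra.Cert

set_option maxRecDepth 100000 in
theorem checkPairs_ok : checkPairs = true := by decide +kernel

set_option maxRecDepth 100000 in
theorem checkRs_ok : checkRs = true := by decide +kernel

set_option maxRecDepth 100000 in
theorem checkSum_ok : 100000 * sumZ ≤ 49999 * 80 * 2 ^ 78 := by decide +kernel

set_option maxRecDepth 100000 in
theorem tbl_fst : tbl.map Prod.fst = List.range 160 := by decide +kernel

end Crest.Agent.Lib.Tetra.Cert
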