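import Crest.Agent.Lib.Tetra.Area
import Crest.Agent.Lib.Tetra.CertCheck

/-!
# The explicit cover of the regular tetrahedron by 640 triangular cylinders
-/

set_option autoImplicit false
open MeasureTheory
open scoped ENNReal

namespace Crest.Agent.Lib.Tetra
open Cert

/-- The wedge function. -/
noncomputable def Fw (s x y ζ : ℝ) : ℝ := y - s * ζ + ((1 - s ^ 2) / 12) * x

/-- Farkas multipliers, real version. -/
noncomputable def alR (E E' S' : ℝ) : ℝ := 1228800 * E' + 2 * E * E' * S' + E * (102400 - S' ^ 2)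
/-- Farkas multipliers, real version. -/
noncomputable def beR (E E' S : ℝ) : ℝ := E' * (102400 - S ^ 2) + 2 * E * E' * S - 1228800 * E
/-- Farkas multipliers, real version. -/
noncomputable def comR (S S' : ℝ) : ℝ := 1509949440000 + (102400 - S ^ 2) * (102400 - S' ^ 2)
/-- Farkas multipliers, real version. -/
noncomputable def muR (E' S S' : ℝ) : ℝ :=
  comR S S' + 2 * E' * (102400 - S ^ 2) * S' - 2457600 * E' * S
/-- Farkas multipliers, real version. -/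
noncomputable def nuR (E S S' : ℝ) : ℝ :=
  comR S S' + 2457600 * E * S' + 2 * E * (102400 - S' ^ 2) * S

theorem farkas_real (E E' S S' U₁ U₂ x y ζ : ℝ)
    (hα : alR E E' S' * Fw (S / 320) x y ζ ≤ 0)
    (hβ : beR E E' S * Fw (S' / 320) y (-x) (1 - ζ) ≤ 0)
    (hμ : 0 < muR E' S S') (hν : 0 < nuR E S S')
    (hC : 0 ≤ muR E' S S' * U₁ + nuR E S S' * U₂ - nuR E S S' * 16777216
      - 33554432 * beR E E' S * S') :
    ¬ (U₁ / 16777216 < ζ + (E / 1920) * x ∧ U₂ / 16777216 < (1 - ζ) + (E' / 1920) * y) := by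
  rintro ⟨h1, h2⟩
  have h1' : U₁ - 16777216 * (ζ + (E / 1920) * x) < 0 := by
    have := (div_lt_iff₀' (by norm_num : (0 : ℝ) < 16777216)).1 h1
    linarith
  have h2' : U₂ - 16777216 * ((1 - ζ) + (E' / 1920) * y) < 0 := by
    have := (div_lt_iff₀' (by norm_num : (0 : ℝ) < 16777216)).1 h2
    linarith
  have t1 := mul_neg_of_pos_of_neg hμ h1'
  have t2 := mul_neg_of_pos_of_neg hν h2'
  have key : muR E' S S' * (U₁ - 16777216 * (ζ + (E / 1920) * x))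
      + nuR E S S' * (U₂ - 16777216 * ((1 - ζ) + (E' / 1920) * y))
      + (2 * 320 * 16777216) * (alR E E' S' * Fw (S / 320) x y ζ)
      + (2 * 320 * 16777216) * (beR E E' S * Fw (S' / 320) y (-x) (1 - ζ))
      = muR E' S S' * U₁ + nuR E S S' * U₂ - nuR E S S' * 16777216
      - 33554432 * beR E E' S * S' := by
    simp only [alR, beR, muR, nuR, comR, Fw]
    ring
  have t3 : (2 * 320 * 16777216 : ℝ) * (alR E E' S' * Fw (S / 320) x y ζ) ≤ 0 :=
    mul_nonpos_of_nonneg_of_nonpos (by norm_num) hα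
  have t4 : (2 * 320 * 16777216 : ℝ) * (beR E E' S * Fw (S' / 320) y (-x) (1 - ζ)) ≤ 0 :=
    mul_nonpos_of_nonneg_of_nonpos (by norm_num) hβ
  linarith

theorem cast_sub_sq {S : ℕ} (hS : S ≤ 320) :
    ((Nat.sub 102400 (Nat.mul S S) : ℕ) : ℝ) = 102400 - (S : ℝ) ^ 2 := by
  have h : S * S ≤ 102400 := by nlinarith
  have : Nat.sub 102400 (Nat.mul S S) = 102400 - S * S := rfl
  rw [this, Nat.cast_sub h]
  push_cast
  ring

theorem cast_bPN {E E' S : ℕ} (hS : S ≤ 320) :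
    ((bPN E E' S : ℕ) : ℝ) = (E' : ℝ) * (102400 - (S : ℝ) ^ 2) + 2 * E * E' * S := by
  have : bPN E E' S = E' * (Nat.sub 102400 (Nat.mul S S)) + 2 * (E * E' * S) := rfl
  rw [this]
  push_cast
  rw [cast_sub_sq hS]
  ring

theorem cast_bNN (E : ℕ) : ((bNN E : ℕ) : ℝ) = 1228800 * (E : ℝ) := by
  have : bNN E = 1228800 * E := rfl
  rw [this]
  push_cast
  ring

theorem cast_comN {S S' : ℕ} (hS : S ≤ 320) (hS' : S' ≤ 320) :
    ((comN S S' : ℕ) : ℝ) = comR (S : ℝ) (S' : ℝ) := by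
  have : comN S S' = 1509949440000 + (Nat.sub 102400 (Nat.mul S S)) * (Nat.sub 102400 (Nat.mul S' S')) := rfl
  rw [this]
  push_cast
  rw [cast_sub_sq hS, cast_sub_sq hS']
  simp [comR]

theorem cast_mPN {E' S S' : ℕ} (hS : S ≤ 320) (hS' : S' ≤ 320) :
    ((mPN E' S S' : ℕ) : ℝ) = comR (S : ℝ) (S' : ℝ) + 2 * E' * (102400 - (S : ℝ) ^ 2) * S' := by
  have : mPN E' S S' = comN S S' + 2 * (E' * (Nat.sub 102400 (Nat.mul S S)) * S') := rfl
  rw [this]
  push_cast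
  rw [cast_sub_sq hS, cast_comN hS hS']
  ring

theorem cast_mNN (E' S : ℕ) : ((mNN E' S : ℕ) : ℝ) = 2457600 * (E' : ℝ) * S := by
  have : mNN E' S = 2457600 * (E' * S) := rfl
  rw [this]
  push_cast
  ring

theorem cast_nuN {E S S' : ℕ} (hS : S ≤ 320) (hS' : S' ≤ 320) :
    ((nuN E S S' : ℕ) : ℝ) = nuR (E : ℝ) (S : ℝ) (S' : ℝ) := by
  have : nuN E S S' = comN S S' + 2457600 * (E * S') + 2 * (E * (Nat.sub 102400 (Nat.mul S' S')) * S) := rfl
  rw [this]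
  push_cast
  rw [cast_sub_sq hS', cast_comN hS hS', nuR]
  ring

theorem coreN_sound (E E' S S' U₁ U₂ : ℕ) (hS : S ≤ 320) (hS' : S' ≤ 320)
    (h : coreN E E' S S' U₁ U₂ = true) (x y ζ : ℝ)
    (hF : Fw ((S : ℝ) / 320) x y ζ ≤ 0)
    (hR : (bPN E E' S ≤ bNN E ∧ 0 ≤ Fw ((S' : ℝ) / 320) y (-x) (1 - ζ)) ∨
      (bNN E ≤ bPN E E' S ∧ Fw ((S' : ℝ) / 320) y (-x) (1 - ζ) ≤ 0)) :
    ¬ ((U₁ : ℝ) / 16777216 < ζ + ((E : ℝ) / 1920) * x ∧
       (U₂ : ℝ) / 16777216 < (1 - ζ) + ((E' : ℝ) / 1920) * y) := by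
  simp only [coreN, Bool.and_eq_true, Nat.blt_eq, Nat.ble_eq] at h
  obtain ⟨h1, h2⟩ := h
  have hS'2 : (S' : ℝ) ^ 2 ≤ 102400 := by
    have : (S' : ℝ) ≤ 320 := by exact_mod_cast hS'
    have h0 : (0 : ℝ) ≤ S' := Nat.cast_nonneg _
    nlinarith
  have hS2 : (S : ℝ) ^ 2 ≤ 102400 := by
    have : (S : ℝ) ≤ 320 := by exact_mod_cast hS
    have h0 : (0 : ℝ) ≤ S := Nat.cast_nonneg _
    nlinarith
  have hE0 : (0 : ℝ) ≤ E := Nat.cast_nonneg _
  have hE'0 : (0 : ℝ) ≤ E' := Nat.cast_nonneg _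
  have hS0 : (0 : ℝ) ≤ S := Nat.cast_nonneg _
  have hS'0 : (0 : ℝ) ≤ S' := Nat.cast_nonneg _
  have hbe : beR (E : ℝ) (E' : ℝ) (S : ℝ) = ((bPN E E' S : ℕ) : ℝ) - ((bNN E : ℕ) : ℝ) := by
    rw [cast_bPN hS, cast_bNN, beR]
  have hmu : muR (E' : ℝ) (S : ℝ) (S' : ℝ) = ((mPN E' S S' : ℕ) : ℝ) - ((mNN E' S : ℕ) : ℝ) := by
    rw [cast_mPN hS hS', cast_mNN, muR]
  have hnu := cast_nuN (E := E) hS hS'
  refine farkas_real (E : ℝ) (E' : ℝ) (S : ℝ) (S' : ℝ) (U₁ : ℝ) (U₂ : ℝ) x y ζ ?_ ?_ ?_ ?_ ?_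
  · -- α ≥ 0
    have hal : 0 ≤ alR (E : ℝ) (E' : ℝ) (S' : ℝ) := by
      simp only [alR]
      have : 0 ≤ (E : ℝ) * (102400 - (S' : ℝ) ^ 2) := mul_nonneg hE0 (by linarith)
      positivity
    exact mul_nonpos_of_nonneg_of_nonpos hal hF
  · rw [hbe]
    rcases hR with ⟨h3, h4⟩ | ⟨h3, h4⟩
    · have : ((bPN E E' S : ℕ) : ℝ) ≤ ((bNN E : ℕ) : ℝ) := by exact_mod_cast h3
      exact mul_nonpos_of_nonpos_of_nonneg (by linarith) h4
    · have : ((bNN E : ℕ) : ℝ) ≤ ((bPN E E' S : ℕ) : ℝ) := by exact_mod_cast h3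
      exact mul_nonpos_of_nonneg_of_nonpos (by linarith) h4
  · rw [hmu]
    have : ((mNN E' S : ℕ) : ℝ) < ((mPN E' S S' : ℕ) : ℝ) := by exact_mod_cast h1
    linarith
  · have h5 : 0 ≤ comR (S : ℝ) (S' : ℝ) - 1509949440000 := by
      simp only [comR]
      have := mul_nonneg (by linarith : 0 ≤ 102400 - (S : ℝ) ^ 2) (by linarith : 0 ≤ 102400 - (S' : ℝ) ^ 2)
      linarith
    simp only [nuR]
    have : 0 ≤ (E : ℝ) * (102400 - (S' : ℝ) ^ 2) := mul_nonneg hE0 (by linarith)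
    have h6 : 0 ≤ 2 * (E : ℝ) * (102400 - (S' : ℝ) ^ 2) * S := by
      have := mul_nonneg this hS0
      linarith
    have h7 : 0 ≤ 2457600 * (E : ℝ) * S' := by positivity
    linarith
  · rw [hbe, hmu, ← hnu]
    have h3 : (((Nat.add (Nat.add (Nat.mul (mNN E' S) U₁) (Nat.mul (nuN E S S') 16777216))
      (Nat.mul 33554432 (Nat.mul (bPN E E' S) S')) : ℕ)) : ℝ) ≤
      ((Nat.add (Nat.add (Nat.mul (mPN E' S S') U₁) (Nat.mul (nuN E S S') U₂))
      (Nat.mul 33554432 (Nat.mul (bNN E) S')) : ℕ) : ℝ) := by exact_mod_cast h2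
    simp only [Nat.add_eq, Nat.mul_eq] at h3
    push_cast at h3
    nlinarith

theorem pairN_sound (E E' U₁ U₂ : ℕ) (hE : E + 1 ≤ 320) (hE' : E' + 1 ≤ 320) (hE1 : 1 ≤ E')
    (h : pairN E E' U₁ U₂ = true) (x y ζ : ℝ)
    (hF : Fw (((E : ℝ) + 1) / 320) x y ζ ≤ 0)
    (hR0 : 0 ≤ Fw (((E' : ℝ) - 1) / 320) y (-x) (1 - ζ))
    (hR1 : Fw (((E' : ℝ) + 1) / 320) y (-x) (1 - ζ) ≤ 0) :
    ¬ ((U₁ : ℝ) / 16777216 < ζ + ((E : ℝ) / 1920) * x ∧
       (U₂ : ℝ) / 16777216 < (1 - ζ) + ((E' : ℝ) / 1920) * y) := by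
  have hF' : Fw (((E + 1 : ℕ) : ℝ) / 320) x y ζ ≤ 0 := by
    push_cast; exact hF
  simp only [pairN] at h
  split_ifs at h with hc
  · have hc' : bPN E E' (E + 1) ≤ bNN E := by simpa using hc
    refine coreN_sound E E' (E + 1) (E' - 1) U₁ U₂ hE (by omega) h x y ζ hF' (Or.inl ⟨hc', ?_⟩)
    rw [Nat.cast_sub hE1]
    simpa using hR0
  · have hc' : bNN E ≤ bPN E E' (E + 1) := by
      have : ¬ (bPN E E' (E + 1) ≤ bNN E) := by
        intro h'
        exact hc (by simpa using h')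
      omega
    refine coreN_sound E E' (E + 1) (E' + 1) U₁ U₂ hE hE' h x y ζ hF' (Or.inr ⟨hc', ?_⟩)
    push_cast
    exact hR1

/-! ### Table lookups -/

/-- the height numerators -/
def Ut (k : ℕ) : ℕ := (tbl.getD k (0, 0, 0)).2.1
/-- the inverse-length numerators -/
def Rt (k : ℕ) : ℕ := (tbl.getD k (0, 0, 0)).2.2

theorem tbl_length : tbl.length = 160 := by
  have := congrArg List.length tbl_fst
  simpa using this

theorem tbl_mem {k : ℕ} (hi : k < 160) : (k, Ut k, Rt k) ∈ tbl := by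
  have hlen : k < tbl.length := by rw [tbl_length]; exact hi
  have h1 : (tbl.map Prod.fst)[k]'(by simpa using hlen) = (List.range 160)[k]'(by simpa using hi) := by
    simp only [tbl_fst]
  have h2 : (tbl[k]).1 = k := by
    simpa using h1
  have h3 : tbl.getD k (0, 0, 0) = tbl[k] := by
    simp [List.getD_eq_getElem?_getD, hlen]
  have h4 : (k, Ut k, Rt k) = tbl[k] := by
    apply Prod.ext
    · exact h2.symm
    · apply Prod.ext
      · show (tbl.getD k (0, 0, 0)).2.1 = _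
        rw [h3]
      · show (tbl.getD k (0, 0, 0)).2.2 = _
        rw [h3]
  rw [h4]
  exact List.getElem_mem hlen

theorem pair_check {k k' : ℕ} (hi : k < 160) (hj : k' < 160) :
    pairN (2 * k + 1) (2 * k' + 1) (Ut k) (Ut k') = true := by
  have h := checkPairs_ok
  simp only [checkPairs, List.all_eq_true] at h
  exact h _ (tbl_mem hi) _ (tbl_mem hj)

theorem Ut_pos {k : ℕ} (hi : k < 160) : 0 < Ut k := by
  have h := checkRs_ok
  simp only [checkRs, List.all_eq_true, Bool.and_eq_true, Nat.blt_eq] at h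
  exact (h _ (tbl_mem hi)).1

theorem okR_at {k : ℕ} (hi : k < 160) : okR (2 * k + 1) (Rt k) = true := by
  have h := checkRs_ok
  simp only [checkRs, List.all_eq_true, Bool.and_eq_true, Nat.blt_eq] at h
  exact (h _ (tbl_mem hi)).2

/-- sum over the table as a `Fin` sum -/
theorem sum_table : (∑ i ∈ Finset.range 160, Ut i * Ut i * Rt i) = sumZ := by
  have hlen := tbl_length
  rw [Finset.sum_range]
  have h2 : ∀ i : Fin 160, Ut i * Ut i * Rt i =
      (fun a : ℕ × ℕ × ℕ => a.2.1 * a.2.1 * a.2.2) (tbl[(i : ℕ)]'(by rw [hlen]; exact i.2)) := by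
    intro i
    have h3 : tbl.getD (i : ℕ) (0, 0, 0) = tbl[(i : ℕ)]'(by rw [hlen]; exact i.2) := by
      simp [List.getD_eq_getElem?_getD, hlen]
    simp only [Ut, Rt, h3]
  simp_rw [h2]
  rw [sumZ]
  have h5 : tbl.map (fun a : ℕ × ℕ × ℕ => a.2.1 * a.2.1 * a.2.2) =
      List.ofFn (fun i : Fin 160 => (fun a : ℕ × ℕ × ℕ => a.2.1 * a.2.1 * a.2.2)
        (tbl[(i : ℕ)]'(by rw [hlen]; exact i.2))) := by
    apply List.ext_getElem
    · rw [List.length_map, List.length_ofFn, hlen]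
    · intro i h1 h2
      simp only [List.getElem_map, List.getElem_ofFn]
  rw [h5, List.sum_ofFn]

/-! ### The point-wise combinatorics -/

theorem wedge_exists (f : ℕ → ℝ) (h0 : 0 ≤ f 0) (hN : f 320 ≤ 0) :
    ∃ i, i < 320 ∧ 0 ≤ f i ∧ f (i + 1) ≤ 0 := by
  classical
  have hex : ∃ k, f (k + 1) ≤ 0 := ⟨319, hN⟩
  have hspec := Nat.find_spec hex
  have hmin := fun m => @Nat.find_min _ _ hex m
  have hle : Nat.find hex ≤ 319 := Nat.find_min' hex hN
  refine ⟨Nat.find hex, by omega, ?_, hspec⟩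
  rcases Nat.eq_zero_or_pos (Nat.find hex) with h | h
  · rw [h]; exact h0
  · have := hmin (Nat.find hex - 1) (by omega)
    rw [Nat.sub_add_cancel h] at this
    linarith

/-- table index of the wedge `i` -/
def idx (i : ℕ) : ℕ := if 160 ≤ i then i - 160 else 159 - i

theorem idx_lt {i : ℕ} (hi : i < 320) : idx i < 160 := by
  unfold idx; split_ifs <;> omega

theorem idx_bar {i : ℕ} (hi : i < 320) : idx (319 - i) = idx i := by
  unfold idx; split_ifs <;> omega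

/-- `τ_i` -/
noncomputable def tauR (i : ℕ) : ℝ := (2 * (i : ℝ) - 320) / 320
/-- `τ_{i+1}` -/
noncomputable def tauR' (i : ℕ) : ℝ := (2 * (i : ℝ) + 2 - 320) / 320
/-- `T_i` -/
noncomputable def TR (i : ℕ) : ℝ := ((Ut (idx i) : ℕ) : ℝ) / 16777216
/-- upper bound of the inverse length -/
noncomputable def rR (i : ℕ) : ℝ := ((Rt (idx i) : ℕ) : ℝ) / 1073741824

theorem tauR_succ (i : ℕ) : tauR (i + 1) = tauR' i := by
  simp only [tauR, tauR']
  push_cast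
  ring

theorem tauR_zero : tauR 0 = -1 := by
  simp only [tauR]
  norm_num

theorem tauR_320 : tauR 320 = 1 := by
  simp only [tauR]
  norm_num

theorem tauR'_sub (i : ℕ) : tauR' i - tauR i = 1 / 160 := by
  simp only [tauR, tauR']
  ring

theorem tauR_bar {i : ℕ} (hi : i < 320) : tauR (319 - i) = - tauR' i := by
  have : ((319 - i : ℕ) : ℝ) = 319 - (i : ℝ) := by
    rw [Nat.cast_sub (by omega)]; norm_num
  simp only [tauR, tauR', this]
  ring

theorem tauR'_bar {i : ℕ} (hi : i < 320) : tauR' (319 - i) = - tauR i := by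
  have : ((319 - i : ℕ) : ℝ) = 319 - (i : ℝ) := by
    rw [Nat.cast_sub (by omega)]; norm_num
  simp only [tauR, tauR', this]
  ring

theorem TR_bar {i : ℕ} (hi : i < 320) : TR (319 - i) = TR i := by
  simp only [TR, idx_bar hi]

theorem TR_pos {i : ℕ} (hi : i < 320) : 0 < TR i := by
  have := Ut_pos (idx_lt hi)
  have h : (0 : ℝ) < (Ut (idx i) : ℝ) := by exact_mod_cast this
  simp only [TR]
  positivity

/-- The no-double-overshoot claim for a pair of wedges. -/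
def Cl (i j : ℕ) : Prop :=
  ∀ x y ζ : ℝ, 0 ≤ Fw (tauR i) x y ζ → Fw (tauR' i) x y ζ ≤ 0 →
    0 ≤ Fw (tauR j) y (-x) (1 - ζ) → Fw (tauR' j) y (-x) (1 - ζ) ≤ 0 →
    ¬ (TR i < ζ + ((tauR i + tauR' i) / 12) * x ∧ TR j < (1 - ζ) + ((tauR j + tauR' j) / 12) * y)

theorem Cl_quad {k k' : ℕ} (hk : k < 160) (hk' : k' < 160) : Cl (160 + k) (160 + k') := by
  intro x y ζ _ h2 h3 h4
  have hid : idx (160 + k) = k := by unfold idx; split_ifs <;> omega
  have hid' : idx (160 + k') = k' := by unfold idx; split_ifs <;> omega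
  have e1 : tauR' (160 + k) = (((2 * k + 1 : ℕ) : ℝ) + 1) / 320 := by
    simp only [tauR']; push_cast; ring
  have e2 : tauR (160 + k') = (((2 * k' + 1 : ℕ) : ℝ) - 1) / 320 := by
    simp only [tauR]; push_cast; ring
  have e3 : tauR' (160 + k') = (((2 * k' + 1 : ℕ) : ℝ) + 1) / 320 := by
    simp only [tauR']; push_cast; ring
  have e4 : (tauR (160 + k) + tauR' (160 + k)) / 12 = ((2 * k + 1 : ℕ) : ℝ) / 1920 := by
    simp only [tauR, tauR']; push_cast; ring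
  have e5 : (tauR (160 + k') + tauR' (160 + k')) / 12 = ((2 * k' + 1 : ℕ) : ℝ) / 1920 := by
    simp only [tauR, tauR']; push_cast; ring
  rw [e1] at h2
  rw [e2] at h3
  rw [e3] at h4
  rw [e4, e5]
  simp only [TR, hid, hid']
  exact pairN_sound (2 * k + 1) (2 * k' + 1) (Ut k) (Ut k') (by omega) (by omega) (by omega)
    (pair_check hk hk') x y ζ h2 h3 h4

theorem Fw_neg (s x y ζ : ℝ) : Fw (-s) (-x) (-y) ζ = - Fw s x y ζ := by
  simp only [Fw]; ring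

theorem Cl_rot {i j : ℕ} (hi : i < 320) (h : Cl j (319 - i)) : Cl i j := by
  intro x y ζ h1 h2 h3 h4 hcon
  refine h y (-x) (1 - ζ) h3 h4 ?_ ?_ ?_
  · have : 1 - (1 - ζ) = ζ := by ring
    rw [tauR_bar hi, this, Fw_neg]
    linarith
  · have : 1 - (1 - ζ) = ζ := by ring
    rw [tauR'_bar hi, this, Fw_neg]
    linarith
  · refine ⟨hcon.2, ?_⟩
    rw [TR_bar hi, tauR_bar hi, tauR'_bar hi]
    have := hcon.1
    have e : 1 - (1 - ζ) + ((-tauR' i + -tauR i) / 12) * (-x) = ζ + ((tauR i + tauR' i) / 12) * x := by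
      ring
    rw [e]
    exact this

theorem Cl_all {i j : ℕ} (hi : i < 320) (hj : j < 320) : Cl i j := by
  have quad : ∀ {a b : ℕ}, a < 320 → b < 320 → 160 ≤ a → 160 ≤ b → Cl a b := by
    intro a b ha hb ha' hb'
    have := @Cl_quad (a - 160) (b - 160) (by omega) (by omega)
    rwa [show 160 + (a - 160) = a by omega, show 160 + (b - 160) = b by omega] at this
  have hbari : 319 - i < 320 := by omega
  have hbarj : 319 - j < 320 := by omega
  by_cases h1 : 160 ≤ i <;> by_cases h2 : 160 ≤ j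
  · exact quad hi hj h1 h2
  · -- `i ≥ 160`, `j < 160`
    apply Cl_rot hi
    apply Cl_rot hj
    apply Cl_rot hbari
    rw [show 319 - (319 - i) = i by omega]
    exact quad hbarj hi (by omega) h1
  · apply Cl_rot hi
    exact quad hj hbari h2 (by omega)
  · apply Cl_rot hi
    apply Cl_rot hj
    exact quad hbari hbarj (by omega) (by omega)

theorem main_point (x y ζ : ℝ) (h1 : |x| ≤ 1 - ζ) (h2 : |y| ≤ ζ) :
    ∃ i j, i < 320 ∧ j < 320 ∧
      0 ≤ Fw (tauR i) x y ζ ∧ Fw (tauR' i) x y ζ ≤ 0 ∧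
      0 ≤ Fw (tauR j) y (-x) (1 - ζ) ∧ Fw (tauR' j) y (-x) (1 - ζ) ≤ 0 ∧
      (ζ + ((tauR i + tauR' i) / 12) * x ≤ TR i ∨
        (1 - ζ) + ((tauR j + tauR' j) / 12) * y ≤ TR j) := by
  have hx := abs_le.1 h1
  have hy := abs_le.1 h2
  obtain ⟨i, hi, hi0, hi1⟩ := wedge_exists (fun k => Fw (tauR k) x y ζ)
    (by simp only [tauR_zero, Fw]; nlinarith [hy.1]) (by simp only [tauR_320, Fw]; nlinarith [hy.2])
  obtain ⟨j, hj, hj0, hj1⟩ := wedge_exists (fun k => Fw (tauR k) y (-x) (1 - ζ))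
    (by simp only [tauR_zero, Fw]; nlinarith [hx.2]) (by simp only [tauR_320, Fw]; nlinarith [hx.1])
  simp only [tauR_succ] at hi1 hj1
  refine ⟨i, j, hi, hj, hi0, hi1, hj0, hj1, ?_⟩
  by_contra hcon
  push Not at hcon
  exact Cl_all hi hj x y ζ hi0 hi1 hj0 hj1 hcon

/-- Barycentric coordinates in a wedge. -/
theorem lowPoint (x y ζ τ τ' T : ℝ) (hτ : τ < τ') (hT : 0 < T)
    (h0 : 0 ≤ Fw τ x y ζ) (h1 : Fw τ' x y ζ ≤ 0) (h2 : ζ + ((τ + τ') / 12) * x ≤ T) :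
    ∃ l₁ l₂ : ℝ, 0 ≤ l₁ ∧ 0 ≤ l₂ ∧ l₁ + l₂ ≤ 1 ∧
      y + x * ((1 + τ * τ') / 12) = (l₁ * τ + l₂ * τ') * T ∧
      ζ + ((τ + τ') / 12) * x = (l₁ + l₂) * T := by
  have hd : 0 < τ' - τ := by linarith
  set vy := y + x * ((1 + τ * τ') / 12) with hvy
  set vz := ζ + ((τ + τ') / 12) * x with hvz
  have e0 : Fw τ x y ζ = vy - τ * vz := by
    simp only [Fw, hvy, hvz]; ring
  have e1 : Fw τ' x y ζ = vy - τ' * vz := by
    simp only [Fw, hvy, hvz]; ring
  rw [e0] at h0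
  rw [e1] at h1
  have hDT : 0 < (τ' - τ) * T := mul_pos hd hT
  refine ⟨(τ' * vz - vy) / ((τ' - τ) * T), (vy - τ * vz) / ((τ' - τ) * T),
    div_nonneg (by linarith) hDT.le, div_nonneg (by linarith) hDT.le, ?_, ?_, ?_⟩
  · rw [← add_div, div_le_one hDT]
    have : τ' * vz - vy + (vy - τ * vz) = (τ' - τ) * vz := by ring
    rw [this]
    exact mul_le_mul_of_nonneg_left h2 hd.le
  · field_simp
    ring
  · field_simp
    ring

/-! ### Geometry of cylinders -/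

theorem norm_sq_E3 (z : E3) : ‖z‖ ^ 2 = z 0 ^ 2 + z 1 ^ 2 + z 2 ^ 2 := by
  rw [EuclideanSpace.norm_sq_eq]
  simp [Fin.sum_univ_three]

theorem inner_E3 (z w : E3) : inner ℝ z w = z 0 * w 0 + z 1 * w 1 + z 2 * w 2 := by
  simp [PiLp.inner_apply, Fin.sum_univ_three]
  ring

/-- orthogonal projection along a unit vector -/
noncomputable def prj (u y : E3) : E3 := y - inner ℝ y u • u

theorem inner_prj {u : E3} (hu : ‖u‖ = 1) (y : E3) : inner ℝ (prj u y) u = 0 := by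
  simp [prj, inner_sub_left, inner_smul_left, hu]

theorem prj_sub (u a b : E3) : prj u (a - b) = prj u a - prj u b := by
  simp only [prj, inner_sub_left, sub_smul]
  abel

theorem prj_add (u a b : E3) : prj u (a + b) = prj u a + prj u b := by
  simp only [prj, inner_add_left, add_smul]
  abel

theorem prj_smul (u a : E3) (c : ℝ) : prj u (c • a) = c • prj u a := by
  simp only [prj, inner_smul_left, smul_sub, mul_smul]
  simp

/-- The determinant `⟪a × b, u⟫`. -/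
noncomputable def triple (a b u : E3) : ℝ :=
  (a 1 * b 2 - a 2 * b 1) * u 0 + (a 2 * b 0 - a 0 * b 2) * u 1 + (a 0 * b 1 - a 1 * b 0) * u 2

theorem gram_prj {u : E3} (hu : ‖u‖ = 1) (a b : E3) :
    gram (prj u a) (prj u b) = |triple a b u| := by
  have hU : u 0 ^ 2 + u 1 ^ 2 + u 2 ^ 2 = 1 := by
    rw [← norm_sq_E3, hu]; norm_num
  rw [gram, ← Real.sqrt_sq_eq_abs]
  congr 1
  rw [norm_sq_E3, norm_sq_E3, inner_E3]
  simp only [prj, inner_E3, PiLp.sub_apply, PiLp.smul_apply, smul_eq_mul, triple]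
  generalize a 0 = a0
  generalize a 1 = a1
  generalize a 2 = a2
  generalize b 0 = b0
  generalize b 1 = b1
  generalize b 2 = b2
  generalize u 0 = u0 at hU ⊢
  generalize u 1 = u1 at hU ⊢
  generalize u 2 = u2 at hU ⊢
  have h2 : u2 ^ 2 = 1 - u0 ^ 2 - u1 ^ 2 := by linarith
  set p := a0 * u0 + a1 * u1 + a2 * u2 with hp
  set q := b0 * u0 + b1 * u1 + b2 * u2 with hq
  have e1 : (a0 - p * u0) ^ 2 + (a1 - p * u1) ^ 2 + (a2 - p * u2) ^ 2 =
      a0 ^ 2 + a1 ^ 2 + a2 ^ 2 - p ^ 2 := by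
    have : (a0 - p * u0) ^ 2 + (a1 - p * u1) ^ 2 + (a2 - p * u2) ^ 2 =
      a0 ^ 2 + a1 ^ 2 + a2 ^ 2 - 2 * p * p + p ^ 2 * (u0 ^ 2 + u1 ^ 2 + u2 ^ 2) := by
      rw [hp]; ring
    rw [this, hU]; ring
  have e2 : (b0 - q * u0) ^ 2 + (b1 - q * u1) ^ 2 + (b2 - q * u2) ^ 2 =
      b0 ^ 2 + b1 ^ 2 + b2 ^ 2 - q ^ 2 := by
    have : (b0 - q * u0) ^ 2 + (b1 - q * u1) ^ 2 + (b2 - q * u2) ^ 2 =
      b0 ^ 2 + b1 ^ 2 + b2 ^ 2 - 2 * q * q + q ^ 2 * (u0 ^ 2 + u1 ^ 2 + u2 ^ 2) := by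
      rw [hq]; ring
    rw [this, hU]; ring
  have e3 : (a0 - p * u0) * (b0 - q * u0) + (a1 - p * u1) * (b1 - q * u1) +
      (a2 - p * u2) * (b2 - q * u2) = a0 * b0 + a1 * b1 + a2 * b2 - p * q := by
    have : (a0 - p * u0) * (b0 - q * u0) + (a1 - p * u1) * (b1 - q * u1) +
      (a2 - p * u2) * (b2 - q * u2) = a0 * b0 + a1 * b1 + a2 * b2 - 2 * p * q
        + p * q * (u0 ^ 2 + u1 ^ 2 + u2 ^ 2) := by
      rw [hp, hq]; ring
    rw [this, hU]; ring
  rw [e1, e2, e3, hp, hq]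
  linear_combination (-(((a1 * b2 - a2 * b1) ^ 2 + (a2 * b0 - a0 * b2) ^ 2 + (a0 * b1 - a1 * b0) ^ 2))) * hU

/-- Area of the projection of a triangle. -/
theorem area_prj_triangle {u : E3} (hu : ‖u‖ = 1) (A₀ A₁ A₂ : E3) :
    μHE[2] (convexHull ℝ ({prj u A₀, prj u A₁, prj u A₂} : Set E3)) =
      ENNReal.ofReal (|triple (A₁ - A₀) (A₂ - A₀) u| / 2) := by
  rw [area_triangle, ← prj_sub, ← prj_sub, gram_prj hu]

/-- membership in a cylinder from barycentric coordinates -/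
theorem mem_cyl_of_bary (g : E3) (hg : g ≠ 0) (A₀ A₁ A₂ : E3) (l₁ l₂ s : ℝ)
    (h1 : 0 ≤ l₁) (h2 : 0 ≤ l₂) (h3 : l₁ + l₂ ≤ 1) (P : E3)
    (hP : P = A₀ + l₁ • (A₁ - A₀) + l₂ • (A₂ - A₀) + s • g) :
    ∃ b ∈ convexHull ℝ ({prj (‖g‖⁻¹ • g) A₀, prj (‖g‖⁻¹ • g) A₁, prj (‖g‖⁻¹ • g) A₂} : Set E3),
      ∃ t : ℝ, P = b + t • (‖g‖⁻¹ • g) := by
  set u := ‖g‖⁻¹ • g with hu
  set b' := A₀ + l₁ • (A₁ - A₀) + l₂ • (A₂ - A₀) with hb'
  have hgn : ‖g‖ ≠ 0 := norm_ne_zero_iff.2 hg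
  refine ⟨prj u b', ?_, inner ℝ b' u + s * ‖g‖, ?_⟩
  · rw [convexHull_three_eq_image]
    refine ⟨!₂[l₁, l₂], ?_, ?_⟩
    · simpa [unitTri] using ⟨h1, h2, h3⟩
    · simp only [hb', prj_add, prj_smul, prj_sub]
      simp
  · have e : s • g = (s * ‖g‖) • u := by
      rw [hu, smul_smul, mul_assoc, mul_inv_cancel₀ hgn, mul_one]
    rw [hP, e, add_smul, prj]
    abel

/-! ### The tetrahedron -/

/-- the tetrahedron -/
noncomputable def KT : Set E3 :=
  convexHull ℝ ({!₂[1, 0, 0], !₂[-1, 0, 0], !₂[0, 1, Real.sqrt 2], !₂[0, -1, Real.sqrt 2]} : Set E3)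

theorem sqrt2_pos : 0 < Real.sqrt 2 := Real.sqrt_pos.2 (by norm_num)

theorem sqrt2_sq : Real.sqrt 2 ^ 2 = 2 := Real.sq_sqrt (by norm_num)

theorem KT_bound {X : E3} (hX : X ∈ KT) :
    X 0 ≤ 1 - X 2 / Real.sqrt 2 ∧ - X 0 ≤ 1 - X 2 / Real.sqrt 2 ∧
    X 1 ≤ X 2 / Real.sqrt 2 ∧ - X 1 ≤ X 2 / Real.sqrt 2 := by
  have hs := sqrt2_pos
  have hconv : Convex ℝ {X : E3 | X 0 ≤ 1 - X 2 / Real.sqrt 2 ∧ - X 0 ≤ 1 - X 2 / Real.sqrt 2 ∧
      X 1 ≤ X 2 / Real.sqrt 2 ∧ - X 1 ≤ X 2 / Real.sqrt 2} := by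
    intro A hA B hB a b ha hb hab
    simp only [Set.mem_setOf_eq] at hA hB ⊢
    obtain ⟨h1, h2, h3, h4⟩ := hA
    obtain ⟨h5, h6, h7, h8⟩ := hB
    simp only [PiLp.add_apply, PiLp.smul_apply, smul_eq_mul]
    have e : (a * A 2 + b * B 2) / Real.sqrt 2 = a * (A 2 / Real.sqrt 2) + b * (B 2 / Real.sqrt 2) := by
      ring
    rw [e]
    have hb' : b = 1 - a := by linarith
    subst hb'
    refine ⟨?_, ?_, ?_, ?_⟩ <;> nlinarith
  refine convexHull_min ?_ hconv hX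
  intro P hP
  have hs2 : Real.sqrt 2 / Real.sqrt 2 = 1 := div_self hs.ne'
  simp only [Set.mem_insert_iff, Set.mem_singleton_iff] at hP
  rcases hP with rfl | rfl | rfl | rfl <;> simp [hs2] <;> norm_num

/-! ### The cylinders -/

/-- `y`-component of the direction -/
noncomputable def wyR (i : ℕ) : ℝ := -(1 + tauR i * tauR' i) / 12
/-- `ζ`-component of the direction -/
noncomputable def wzR (i : ℕ) : ℝ := -(tauR i + tauR' i) / 12
/-- squared length of the direction -/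
noncomputable def nnR (i : ℕ) : ℝ := 1 + wyR i ^ 2 + 2 * wzR i ^ 2

/-- direction of a low cylinder -/
noncomputable def gL (i : ℕ) : E3 := !₂[1, wyR i, Real.sqrt 2 * wzR i]
/-- direction of a high cylinder -/
noncomputable def gH (i : ℕ) : E3 := !₂[-wyR i, 1, -(Real.sqrt 2 * wzR i)]
/-- apex of the low triangle -/
noncomputable def a0L (_i : ℕ) : E3 := !₂[0, 0, 0]
/-- first vertex of a low triangle -/
noncomputable def a1L (i : ℕ) : E3 := !₂[0, tauR i * TR i, Real.sqrt 2 * TR i]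
/-- second vertex of a low triangle -/
noncomputable def a2L (i : ℕ) : E3 := !₂[0, tauR' i * TR i, Real.sqrt 2 * TR i]
/-- apex of the high triangle -/
noncomputable def a0H (_i : ℕ) : E3 := !₂[0, 0, Real.sqrt 2]
/-- first vertex of a high triangle -/
noncomputable def a1H (i : ℕ) : E3 := !₂[-(tauR i * TR i), 0, Real.sqrt 2 * (1 - TR i)]
/-- second vertex of a high triangle -/
noncomputable def a2H (i : ℕ) : E3 := !₂[-(tauR' i * TR i), 0, Real.sqrt 2 * (1 - TR i)]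

theorem nnR_pos (i : ℕ) : 0 < nnR i := by
  simp only [nnR]; positivity

theorem norm_gL (i : ℕ) : ‖gL i‖ = Real.sqrt (nnR i) := by
  rw [← Real.sqrt_sq (norm_nonneg (gL i)), norm_sq_E3]
  congr 1
  simp only [gL, nnR]
  simp
  rw [mul_pow, sqrt2_sq]

theorem norm_gH (i : ℕ) : ‖gH i‖ = Real.sqrt (nnR i) := by
  rw [← Real.sqrt_sq (norm_nonneg (gH i)), norm_sq_E3]
  congr 1
  simp only [gH, nnR]
  simp
  rw [mul_pow, sqrt2_sq]
  ring

theorem gL_ne (i : ℕ) : gL i ≠ 0 := by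
  rw [← norm_ne_zero_iff, norm_gL]
  exact (Real.sqrt_pos.2 (nnR_pos i)).ne'

theorem gH_ne (i : ℕ) : gH i ≠ 0 := by
  rw [← norm_ne_zero_iff, norm_gH]
  exact (Real.sqrt_pos.2 (nnR_pos i)).ne'

theorem tau_lt (i : ℕ) : tauR i < tauR' i := by
  have := tauR'_sub i
  linarith

/-- The low cylinder `i` contains the point. -/
theorem low_mem {i : ℕ} (hi : i < 320) (x y ζ : ℝ) (h0 : 0 ≤ Fw (tauR i) x y ζ)
    (h1 : Fw (tauR' i) x y ζ ≤ 0) (h2 : ζ + ((tauR i + tauR' i) / 12) * x ≤ TR i) :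
    ∃ b ∈ convexHull ℝ ({prj (‖gL i‖⁻¹ • gL i) (a0L i), prj (‖gL i‖⁻¹ • gL i) (a1L i),
        prj (‖gL i‖⁻¹ • gL i) (a2L i)} : Set E3),
      ∃ t : ℝ, (!₂[x, y, Real.sqrt 2 * ζ] : E3) = b + t • (‖gL i‖⁻¹ • gL i) := by
  obtain ⟨l₁, l₂, hl1, hl2, hl3, e1, e2⟩ := lowPoint x y ζ (tauR i) (tauR' i) (TR i) (tau_lt i)
    (TR_pos hi) h0 h1 h2
  refine mem_cyl_of_bary (gL i) (gL_ne i) _ _ _ l₁ l₂ x hl1 hl2 hl3 _ ?_
  ext k
  fin_cases k
  · simp [gL, a0L, a1L, a2L]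
  · simp [gL, a0L, a1L, a2L, wyR]
    linear_combination e1
  · simp [gL, a0L, a1L, a2L, wzR]
    linear_combination (Real.sqrt 2) * e2

/-- The high cylinder `j` contains the point. -/
theorem high_mem {j : ℕ} (hj : j < 320) (x y ζ : ℝ) (h0 : 0 ≤ Fw (tauR j) y (-x) (1 - ζ))
    (h1 : Fw (tauR' j) y (-x) (1 - ζ) ≤ 0) (h2 : (1 - ζ) + ((tauR j + tauR' j) / 12) * y ≤ TR j) :
    ∃ b ∈ convexHull ℝ ({prj (‖gH j‖⁻¹ • gH j) (a0H j), prj (‖gH j‖⁻¹ • gH j) (a1H j),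
        prj (‖gH j‖⁻¹ • gH j) (a2H j)} : Set E3),
      ∃ t : ℝ, (!₂[x, y, Real.sqrt 2 * ζ] : E3) = b + t • (‖gH j‖⁻¹ • gH j) := by
  obtain ⟨l₁, l₂, hl1, hl2, hl3, e1, e2⟩ := lowPoint y (-x) (1 - ζ) (tauR j) (tauR' j) (TR j)
    (tau_lt j) (TR_pos hj) h0 h1 h2
  refine mem_cyl_of_bary (gH j) (gH_ne j) _ _ _ l₁ l₂ y hl1 hl2 hl3 _ ?_
  ext k
  fin_cases k
  · simp [gH, a0H, a1H, a2H, wyR]
    linear_combination (-1 : ℝ) * e1
  · simp [gH, a0H, a1H, a2H]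
  · simp [gH, a0H, a1H, a2H, wzR]
    linear_combination (-Real.sqrt 2) * e2

theorem KT_covered {X : E3} (hX : X ∈ KT) :
    ∃ i, i < 320 ∧
      ((∃ b ∈ convexHull ℝ ({prj (‖gL i‖⁻¹ • gL i) (a0L i), prj (‖gL i‖⁻¹ • gL i) (a1L i),
        prj (‖gL i‖⁻¹ • gL i) (a2L i)} : Set E3), ∃ t : ℝ, X = b + t • (‖gL i‖⁻¹ • gL i)) ∨
      (∃ b ∈ convexHull ℝ ({prj (‖gH i‖⁻¹ • gH i) (a0H i), prj (‖gH i‖⁻¹ • gH i) (a1H i),
        prj (‖gH i‖⁻¹ • gH i) (a2H i)} : Set E3), ∃ t : ℝ, X = b + t • (‖gH i‖⁻¹ • gH i))) := by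
  obtain ⟨h1, h2, h3, h4⟩ := KT_bound hX
  set ζ := X 2 / Real.sqrt 2 with hζ
  have hXe : X = (!₂[X 0, X 1, Real.sqrt 2 * ζ] : E3) := by
    ext k
    fin_cases k
    · simp
    · simp
    · simp [hζ]
      field_simp
  obtain ⟨i, j, hi, hj, h5, h6, h7, h8, h9⟩ := main_point (X 0) (X 1) ζ (abs_le.2 ⟨by linarith, h1⟩)
    (abs_le.2 ⟨by linarith, h3⟩)
  rcases h9 with h9 | h9
  · refine ⟨i, hi, Or.inl ?_⟩
    rw [hXe]
    exact low_mem hi _ _ _ h5 h6 h9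
  · refine ⟨j, hj, Or.inr ?_⟩
    rw [hXe]
    exact high_mem hj _ _ _ h7 h8 h9

/-! ### Areas -/

theorem unit_of_ne {g : E3} (hg : g ≠ 0) : ‖‖g‖⁻¹ • g‖ = 1 := by
  rw [norm_smul, norm_inv, norm_norm, inv_mul_cancel₀ (norm_ne_zero_iff.2 hg)]

theorem area_low {i : ℕ} (hi : i < 320) :
    (μHE[2] (convexHull ℝ ({prj (‖gL i‖⁻¹ • gL i) (a0L i), prj (‖gL i‖⁻¹ • gL i) (a1L i),
        prj (‖gL i‖⁻¹ • gL i) (a2L i)} : Set E3))).toReal =
      Real.sqrt 2 * TR i ^ 2 / (320 * Real.sqrt (nnR i)) := by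
  rw [area_prj_triangle (unit_of_ne (gL_ne i)), ENNReal.toReal_ofReal (by positivity), norm_gL]
  have hG : 0 < Real.sqrt (nnR i) := Real.sqrt_pos.2 (nnR_pos i)
  have hT := TR_pos hi
  have hs := sqrt2_pos
  have : triple (a1L i - a0L i) (a2L i - a0L i) ((Real.sqrt (nnR i))⁻¹ • gL i) =
      - (Real.sqrt 2 * TR i ^ 2 / (160 * Real.sqrt (nnR i))) := by
    simp only [triple]
    simp [a0L, a1L, a2L, gL]
    have h := tauR'_sub i
    have h' : tauR' i = tauR i + 1 / 160 := by linarith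
    rw [h']
    field_simp
    ring
  rw [this, abs_neg, abs_of_pos (by positivity)]
  field_simp
  ring

theorem area_high {i : ℕ} (hi : i < 320) :
    (μHE[2] (convexHull ℝ ({prj (‖gH i‖⁻¹ • gH i) (a0H i), prj (‖gH i‖⁻¹ • gH i) (a1H i),
        prj (‖gH i‖⁻¹ • gH i) (a2H i)} : Set E3))).toReal =
      Real.sqrt 2 * TR i ^ 2 / (320 * Real.sqrt (nnR i)) := by
  rw [area_prj_triangle (unit_of_ne (gH_ne i)), ENNReal.toReal_ofReal (by positivity), norm_gH]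
  have hG : 0 < Real.sqrt (nnR i) := Real.sqrt_pos.2 (nnR_pos i)
  have hT := TR_pos hi
  have hs := sqrt2_pos
  have : triple (a1H i - a0H i) (a2H i - a0H i) ((Real.sqrt (nnR i))⁻¹ • gH i) =
      (Real.sqrt 2 * TR i ^ 2 / (160 * Real.sqrt (nnR i))) := by
    simp only [triple]
    simp [a0H, a1H, a2H, gH]
    have h := tauR'_sub i
    have h' : tauR' i = tauR i + 1 / 160 := by linarith
    rw [h']
    have h2 := sqrt2_sq
    field_simp
    ring_nf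
  rw [this, abs_of_pos (by positivity)]
  field_simp
  ring

/-! ### Bounds for the lengths and the total area -/

theorem tauR_prod (i : ℕ) : 1 + tauR i * tauR' i =
    (102400 + ((2 * (i : ℝ) + 1 - 320) ^ 2 - 1)) / 102400 := by
  simp only [tauR, tauR']
  ring

theorem tauR_sum (i : ℕ) : (tauR i + tauR' i) / 12 = (2 * (i : ℝ) + 1 - 320) / 1920 := by
  simp only [tauR, tauR']
  ring

theorem e_sq {i : ℕ} (hi : i < 320) :
    (2 * (i : ℝ) + 1 - 320) ^ 2 = (((2 * idx i + 1 : ℕ) : ℝ)) ^ 2 := by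
  unfold idx
  split_ifs with h
  · have : ((i - 160 : ℕ) : ℝ) = (i : ℝ) - 160 := by
      rw [Nat.cast_sub h]; norm_num
    push_cast
    rw [this]
    ring
  · have : ((159 - i : ℕ) : ℝ) = 159 - (i : ℝ) := by
      rw [Nat.cast_sub (by omega)]; norm_num
    push_cast
    rw [this]
    ring

theorem rR_pos {i : ℕ} (hi : i < 320) : 0 < rR i := by
  have h := okR_at (idx_lt hi)
  simp only [okR, Bool.and_eq_true, Nat.blt_eq] at h
  have : (0 : ℝ) < (Rt (idx i) : ℝ) := by exact_mod_cast h.1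
  simp only [rR]
  positivity

theorem rR_sq_mul {i : ℕ} (hi : i < 320) : 1 ≤ rR i ^ 2 * nnR i := by
  have h := okR_at (idx_lt hi)
  simp only [okR, Bool.and_eq_true, Nat.blt_eq, Nat.ble_eq] at h
  have h2 := h.2
  set E := 2 * idx i + 1 with hE
  have hE1 : 1 ≤ E * E := by
    have : 1 ≤ E := by omega
    nlinarith
  have h3 : ((1152921504606846976 * 1509949440000 : ℕ) : ℝ) ≤
      ((Rt (idx i) * Rt (idx i) * (1509949440000 + (102400 + (E * E - 1)) * (102400 + (E * E - 1)) +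
        8 * (E * E) * 102400) : ℕ) : ℝ) := by
    exact_mod_cast h2
  push_cast [Nat.cast_sub hE1] at h3
  have he2 := e_sq hi
  rw [← hE] at he2
  have hn : nnR i = (1509949440000 + (102400 + ((E : ℝ) * E - 1)) * (102400 + ((E : ℝ) * E - 1)) +
      8 * ((E : ℝ) * E) * 102400) / 1509949440000 := by
    simp only [nnR, wyR, wzR]
    have e1 := tauR_prod i
    have e2 := tauR_sum i
    have e3 : -(tauR i + tauR' i) / 12 = - ((2 * (i : ℝ) + 1 - 320) / 1920) := by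
      rw [← e2]; ring
    have e4 : -(1 + tauR i * tauR' i) / 12 = - ((102400 + ((2 * (i : ℝ) + 1 - 320) ^ 2 - 1)) / 102400) / 12 := by
      rw [e1]
    rw [e3, e4, he2]
    have : (2 * (i : ℝ) + 1 - 320) ^ 2 = (E : ℝ) ^ 2 := he2
    have e5 : (-((2 * (i : ℝ) + 1 - 320) / 1920)) ^ 2 = (E : ℝ) ^ 2 / 1920 ^ 2 := by
      rw [neg_sq, div_pow, this]
    rw [e5]
    ring
  rw [hn, rR]
  set N := (1509949440000 + (102400 + ((E : ℝ) * E - 1)) * (102400 + ((E : ℝ) * E - 1)) +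
      8 * ((E : ℝ) * E) * 102400) with hN
  have e : ((Rt (idx i) : ℝ) / 1073741824) ^ 2 * (N / 1509949440000) =
      ((Rt (idx i) : ℝ) * (Rt (idx i) : ℝ) * N) / 1740853180245066011576893440000 := by
    ring
  rw [e, le_div_iff₀ (by norm_num)]
  linarith

theorem inv_sqrt_le {i : ℕ} (hi : i < 320) : (Real.sqrt (nnR i))⁻¹ ≤ rR i := by
  have hG : 0 < Real.sqrt (nnR i) := Real.sqrt_pos.2 (nnR_pos i)
  have hr := rR_pos hi
  have h := rR_sq_mul hi
  have h1 : (rR i * Real.sqrt (nnR i)) ^ 2 = rR i ^ 2 * nnR i := by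
    rw [mul_pow, Real.sq_sqrt (nnR_pos i).le]
  have h2 : 1 ≤ rR i * Real.sqrt (nnR i) := by
    have h3 : 0 ≤ rR i * Real.sqrt (nnR i) := by positivity
    nlinarith
  rw [inv_le_iff_one_le_mul₀ hG]
  linarith

theorem sum_idx (f : ℕ → ℝ) : ∑ i : Fin 320, f (idx i) = 2 * ∑ k ∈ Finset.range 160, f k := by
  rw [Fin.sum_univ_eq_sum_range (fun i => f (idx i)) 320]
  rw [show (320 : ℕ) = 160 + 160 by norm_num, Finset.sum_range_add]
  have h1 : ∑ x ∈ Finset.range 160, f (idx x) = ∑ k ∈ Finset.range 160, f k := by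
    rw [← Finset.sum_range_reflect]
    apply Finset.sum_congr rfl
    intro x hx
    have hx' := Finset.mem_range.1 hx
    congr 1
    unfold idx
    split_ifs <;> omega
  have h2 : ∑ x ∈ Finset.range 160, f (idx (160 + x)) = ∑ k ∈ Finset.range 160, f k := by
    apply Finset.sum_congr rfl
    intro x hx
    congr 1
    unfold idx
    split_ifs <;> omega
  rw [h1, h2]
  ring

theorem sum_T2r : ∑ i : Fin 320, TR i ^ 2 * rR i ≤ 160 * (49999 / 100000) := by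
  have h1 : ∀ i : Fin 320, TR i ^ 2 * rR i =
      (fun k : ℕ => (((Ut k * Ut k * Rt k : ℕ) : ℝ)) / 2 ^ 78) (idx i) := by
    intro i
    simp only [TR, rR]
    push_cast
    ring
  rw [Finset.sum_congr rfl (fun i _ => h1 i), sum_idx (fun k : ℕ => (((Ut k * Ut k * Rt k : ℕ) : ℝ)) / 2 ^ 78)]
  have h2 : ∑ k ∈ Finset.range 160, (((Ut k * Ut k * Rt k : ℕ) : ℝ)) / 2 ^ 78 = (sumZ : ℝ) / 2 ^ 78 := by
    rw [← sum_table, ← Finset.sum_div]
    push_cast
    rfl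
  rw [h2]
  have h3 : ((100000 * sumZ : ℕ) : ℝ) ≤ ((49999 * 80 * 2 ^ 78 : ℕ) : ℝ) := by
    exact_mod_cast checkSum_ok
  push_cast at h3
  have h4 : (sumZ : ℝ) / 2 ^ 78 ≤ 80 * (49999 / 100000) := by
    rw [div_le_iff₀ (by positivity)]
    nlinarith
  linarith

/-! ### The family, indexed by `Fin 320 ⊕ Fin 320` -/

/-- directions -/
noncomputable def gF : Fin 320 ⊕ Fin 320 → E3 := Sum.elim (fun i => gL i) (fun i => gH i)
/-- apex -/
noncomputable def a0F : Fin 320 ⊕ Fin 320 → E3 := Sum.elim (fun i => a0L i) (fun i => a0H i)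
/-- vertex -/
noncomputable def a1F : Fin 320 ⊕ Fin 320 → E3 := Sum.elim (fun i => a1L i) (fun i => a1H i)
/-- vertex -/
noncomputable def a2F : Fin 320 ⊕ Fin 320 → E3 := Sum.elim (fun i => a2L i) (fun i => a2H i)

theorem gF_ne (s : Fin 320 ⊕ Fin 320) : gF s ≠ 0 := by
  cases s with
  | inl i => exact gL_ne i
  | inr i => exact gH_ne i

/-- unit directions -/
noncomputable def uF (s : Fin 320 ⊕ Fin 320) : E3 := ‖gF s‖⁻¹ • gF s
/-- projected vertices -/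
noncomputable def pF (s : Fin 320 ⊕ Fin 320) : E3 := prj (uF s) (a0F s)
/-- projected vertices -/
noncomputable def qF (s : Fin 320 ⊕ Fin 320) : E3 := prj (uF s) (a1F s)
/-- projected vertices -/
noncomputable def rF (s : Fin 320 ⊕ Fin 320) : E3 := prj (uF s) (a2F s)

theorem uF_unit (s : Fin 320 ⊕ Fin 320) : ‖uF s‖ = 1 := unit_of_ne (gF_ne s)

theorem KT_covered' {X : E3} (hX : X ∈ KT) :
    ∃ s, ∃ b ∈ convexHull ℝ ({pF s, qF s, rF s} : Set E3), ∃ t : ℝ, X = b + t • uF s := by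
  obtain ⟨i, hi, h | h⟩ := KT_covered hX
  · exact ⟨Sum.inl ⟨i, hi⟩, h⟩
  · exact ⟨Sum.inr ⟨i, hi⟩, h⟩

theorem sum_area_F :
    ∑ s, (μHE[2] (convexHull ℝ ({pF s, qF s, rF s} : Set E3))).toReal ≤
      Real.sqrt 2 * (49999 / 100000) := by
  rw [Fintype.sum_sum_type]
  have hL : ∀ i : Fin 320, (μHE[2] (convexHull ℝ ({pF (Sum.inl i), qF (Sum.inl i), rF (Sum.inl i)} : Set E3))).toReal
      ≤ Real.sqrt 2 / 320 * (TR i ^ 2 * rR i) := by
    intro i
    have h := area_low i.2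
    have h2 := inv_sqrt_le i.2
    refine le_of_eq_of_le h ?_
    have hT := sq_nonneg (TR (i : ℕ))
    have hs := sqrt2_pos
    rw [div_eq_mul_inv, mul_inv, ← mul_assoc]
    have : Real.sqrt 2 * TR i ^ 2 * (320 : ℝ)⁻¹ * (Real.sqrt (nnR i))⁻¹ ≤
        Real.sqrt 2 * TR i ^ 2 * (320 : ℝ)⁻¹ * rR i :=
      mul_le_mul_of_nonneg_left h2 (by positivity)
    calc _ ≤ _ := this
      _ = _ := by ring
  have hH : ∀ i : Fin 320, (μHE[2] (convexHull ℝ ({pF (Sum.inr i), qF (Sum.inr i), rF (Sum.inr i)} : Set E3))).toReal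
      ≤ Real.sqrt 2 / 320 * (TR i ^ 2 * rR i) := by
    intro i
    have h := area_high i.2
    have h2 := inv_sqrt_le i.2
    refine le_of_eq_of_le h ?_
    have hT := sq_nonneg (TR (i : ℕ))
    have hs := sqrt2_pos
    rw [div_eq_mul_inv, mul_inv, ← mul_assoc]
    have : Real.sqrt 2 * TR i ^ 2 * (320 : ℝ)⁻¹ * (Real.sqrt (nnR i))⁻¹ ≤
        Real.sqrt 2 * TR i ^ 2 * (320 : ℝ)⁻¹ * rR i :=
      mul_le_mul_of_nonneg_left h2 (by positivity)
    calc _ ≤ _ := this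
      _ = _ := by ring
  have h1 := Finset.sum_le_sum (fun i (_ : i ∈ Finset.univ) => hL i)
  have h2 := Finset.sum_le_sum (fun i (_ : i ∈ Finset.univ) => hH i)
  rw [← Finset.mul_sum] at h1 h2
  have h3 := sum_T2r
  have hs := sqrt2_pos
  have h4 : Real.sqrt 2 / 320 * ∑ i : Fin 320, TR i ^ 2 * rR i ≤
      Real.sqrt 2 / 320 * (160 * (49999 / 100000)) :=
    mul_le_mul_of_nonneg_left h3 (by positivity)
  have e : Real.sqrt 2 / 320 * (160 * (49999 / 100000)) = Real.sqrt 2 * (49999 / 100000) / 2 := by ring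
  linarith

/-- The explicit cover, as a family over `Fin 640`. -/
theorem cover640 : ∃ (u p q r : Fin 640 → E3),
    (∀ i, ‖u i‖ = 1) ∧
    (∀ i, inner ℝ (p i) (u i) = 0 ∧ inner ℝ (q i) (u i) = 0 ∧ inner ℝ (r i) (u i) = 0) ∧
    KT ⊆ ⋃ i, {x : E3 | ∃ b ∈ convexHull ℝ ({p i, q i, r i} : Set E3), ∃ t : ℝ, x = b + t • u i} ∧
    ∑ i, (μHE[2] (convexHull ℝ ({p i, q i, r i} : Set E3))).toReal ≤
      Real.sqrt 2 * (49999 / 100000) := by
  let e : Fin 640 ≃ Fin 320 ⊕ Fin 320 := (finSumFinEquiv (m := 320) (n := 320)).symm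
  refine ⟨fun i => uF (e i), fun i => pF (e i), fun i => qF (e i), fun i => rF (e i),
    fun i => uF_unit _, fun i => ⟨inner_prj (uF_unit _) _, inner_prj (uF_unit _) _,
      inner_prj (uF_unit _) _⟩, ?_, ?_⟩
  · intro X hX
    obtain ⟨s, hs⟩ := KT_covered' hX
    refine Set.mem_iUnion.2 ⟨e.symm s, ?_⟩
    simpa using hs
  · have := sum_area_F
    rwa [← Equiv.sum_comp e] at this

end Crest.Agent.Lib.Tetra
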