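import Crest.Agent.Lib.Tetra.Cover

/-!
# The minimal projection of the regular tetrahedron
-/

set_option autoImplicit false
open MeasureTheory
open scoped ENNReal

namespace Crest.Agent.Lib.Tetra

theorem triple_prj_right (a b v : E3) : triple a (prj v b) v = triple a b v := by
  simp only [triple, prj, PiLp.sub_apply, PiLp.smul_apply, smul_eq_mul]
  ring

theorem triple_self (a : E3) (v : E3) : triple a a v = 0 := by
  simp only [triple]
  ring

/-- Image of `K'` under the projection. -/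
theorem conv_prj_subset (v : E3) (K : Set E3) (hK : Convex ℝ K) {P Q R : E3} (hP : P ∈ K) (hQ : Q ∈ K)
    (hR : R ∈ K) : convexHull ℝ ({prj v P, prj v Q, prj v R} : Set E3) ⊆ prj v '' K := by
  apply convexHull_min
  · intro x hx
    simp only [Set.mem_insert_iff, Set.mem_singleton_iff] at hx
    rcases hx with rfl | rfl | rfl
    · exact ⟨P, hP, rfl⟩
    · exact ⟨Q, hQ, rfl⟩
    · exact ⟨R, hR, rfl⟩
  · have hlin : IsLinearMap ℝ (prj v) := ⟨prj_add v, fun c x => prj_smul v x c⟩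
    exact hK.is_linear_image hlin

/-- The lower bound by one face. -/
theorem one_face {v : E3} (hv : ‖v‖ = 1) {K : Set E3} (hK : Convex ℝ K) {P Q R : E3} (hP : P ∈ K)
    (hQ : Q ∈ K) (hR : R ∈ K) :
    ENNReal.ofReal (|triple (Q - P) (R - P) v| / 2) ≤ μHE[2] (prj v '' K) := by
  rw [← area_prj_triangle hv]
  exact measure_mono (conv_prj_subset v K hK hP hQ hR)

/-- The lower bound by two faces over a common edge. -/
theorem two_faces {v : E3} (hv : ‖v‖ = 1) {K : Set E3} (hK : Convex ℝ K) {A B C D : E3}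
    (hA : A ∈ K) (hB : B ∈ K) (hC : C ∈ K) (hD : D ∈ K)
    (hopp : triple (B - A) (C - A) v * triple (B - A) (D - A) v ≤ 0) :
    ENNReal.ofReal ((|triple (B - A) (C - A) v| + |triple (B - A) (D - A) v|) / 2) ≤
      μHE[2] (prj v '' K) := by
  set lC := triple (B - A) (C - A) v with hlC
  set lD := triple (B - A) (D - A) v with hlD
  by_cases h0 : lC = 0
  · have := one_face hv hK hA hB hD
    simpa [h0, ← hlD] using this
  by_cases h1 : lD = 0
  · have := one_face hv hK hA hB hC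
    simpa [h1, ← hlC] using this
  have hneg : lC * lD < 0 := lt_of_le_of_ne hopp (mul_ne_zero h0 h1)
  set S₁ := convexHull ℝ ({prj v A, prj v B, prj v C} : Set E3) with hS₁
  set S₂ := convexHull ℝ ({prj v A, prj v B, prj v D} : Set E3) with hS₂
  have hS₁' : μHE[2] S₁ = ENNReal.ofReal (|lC| / 2) := area_prj_triangle hv _ _ _
  have hS₂' : μHE[2] S₂ = ENNReal.ofReal (|lD| / 2) := area_prj_triangle hv _ _ _
  have hmeas : MeasurableSet S₂ := by
    have : IsCompact S₂ := Set.Finite.isCompact_convexHull ℝ (Set.toFinite _)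
    exact this.isClosed.measurableSet
  have hinter : μHE[2] (S₁ ∩ S₂) = 0 := by
    have hsub : S₁ ∩ S₂ ⊆ convexHull ℝ ({prj v A, prj v B, prj v B} : Set E3) := by
      rintro y ⟨hy1, hy2⟩
      rw [hS₁, convexHull_three_eq_image] at hy1
      rw [hS₂, convexHull_three_eq_image] at hy2
      obtain ⟨z, ⟨hz0, hz1, hz2⟩, rfl⟩ := hy1
      obtain ⟨w, ⟨hw0, hw1, hw2⟩, hw⟩ := hy2
      -- the linear form `ℓ`
      have key : z 1 * lC = w 1 * lD := by
        have h := congrArg (fun y => triple (B - A) (y - prj v A) v) hw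
        simp only [add_sub_cancel_left] at h
        have e1 : ∀ (s t : ℝ) (X : E3), triple (B - A) (prj v A + s • (prj v B - prj v A) + t • (prj v X - prj v A) - prj v A) v
            = t * triple (B - A) (X - A) v := by
          intro s t X
          have e2 : prj v X - prj v A = prj v (X - A) := (prj_sub v X A).symm
          have e3 : prj v B - prj v A = prj v (B - A) := (prj_sub v B A).symm
          rw [e2, e3]
          have e4 := triple_prj_right (B - A) (X - A) v
          rw [← e4]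
          simp only [triple, prj, PiLp.sub_apply, PiLp.add_apply, PiLp.smul_apply, smul_eq_mul]
          ring
        rw [e1, e1] at h
        exact h.symm
      have hz : z 1 = 0 := by
        by_contra hne
        have hpos : 0 < z 1 := lt_of_le_of_ne hz1 (Ne.symm hne)
        rcases lt_or_gt_of_ne h0 with h2 | h2
        · have h3 : 0 < lD := by
            by_contra h4
            push Not at h4
            have := mul_nonneg_of_nonpos_of_nonpos h2.le h4
            linarith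
          have h4 : z 1 * lC < 0 := mul_neg_of_pos_of_neg hpos h2
          have h5 : 0 ≤ w 1 * lD := mul_nonneg hw1 h3.le
          linarith
        · have h3 : lD < 0 := by
            by_contra h4
            push Not at h4
            have := mul_nonneg h2.le h4
            linarith
          have h4 : 0 < z 1 * lC := mul_pos hpos h2
          have h5 : w 1 * lD ≤ 0 := mul_nonpos_of_nonneg_of_nonpos hw1 h3.le
          linarith
      rw [convexHull_three_eq_image]
      refine ⟨!₂[z 0, 0], ?_, ?_⟩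
      · simp only [unitTri, Set.mem_setOf_eq]
        simp
        constructor
        · exact hz0
        · rw [hz] at hz2
          linarith
      · simp [hz]
    have h2 : μHE[2] (convexHull ℝ ({prj v A, prj v B, prj v B} : Set E3)) = 0 := by
      rw [area_prj_triangle hv, triple_self]
      simp
    exact measure_mono_null hsub h2
  have hunion : S₁ ∪ S₂ ⊆ prj v '' K :=
    Set.union_subset (conv_prj_subset v K hK hA hB hC) (conv_prj_subset v K hK hA hB hD)
  have hadd := measure_union_add_inter (μ := μHE[2]) S₁ hmeas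
  rw [hinter, add_zero, hS₁', hS₂'] at hadd
  rw [add_div, ENNReal.ofReal_add (by positivity) (by positivity), ← hadd]
  exact measure_mono hunion

/-- The four vertices lie in `KT`. -/
theorem vA_mem : (!₂[1, 0, 0] : E3) ∈ KT := subset_convexHull _ _ (by simp)
theorem vB_mem : (!₂[-1, 0, 0] : E3) ∈ KT := subset_convexHull _ _ (by simp)
theorem vC_mem : (!₂[0, 1, Real.sqrt 2] : E3) ∈ KT := subset_convexHull _ _ (by simp)
theorem vD_mem : (!₂[0, -1, Real.sqrt 2] : E3) ∈ KT := subset_convexHull _ _ (by simp)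

theorem KT_convex : Convex ℝ KT := convex_convexHull _ _

/-- The numerical heart. -/
theorem minproj_numeric (a b c m : ℝ) (habc : a ^ 2 + b ^ 2 + c ^ 2 = 1)
    (h1 : |a + b + c| ≤ m) (h2 : |a + b - c| ≤ m) (h3 : |a - b + c| ≤ m) (h4 : |a - b - c| ≤ m)
    (h5 : 2 * |a| ≤ m) (h6 : 2 * |b| ≤ m) (h7 : 2 * |c| ≤ m) : Real.sqrt 2 ≤ m := by
  by_contra hcon
  push Not at hcon
  have hs := sqrt2_pos
  have hs2 := sqrt2_sq
  have hA : 0 ≤ |a| := abs_nonneg a
  have hB : 0 ≤ |b| := abs_nonneg b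
  have hC : 0 ≤ |c| := abs_nonneg c
  have hsum : |a| + |b| + |c| ≤ m := by
    have ha1 := abs_le.1 h1
    have ha2 := abs_le.1 h2
    have ha3 := abs_le.1 h3
    have ha4 := abs_le.1 h4
    rcases abs_cases a with ⟨e1, _⟩ | ⟨e1, _⟩ <;> rcases abs_cases b with ⟨e2, _⟩ | ⟨e2, _⟩ <;>
      rcases abs_cases c with ⟨e3, _⟩ | ⟨e3, _⟩ <;> rw [e1, e2, e3] <;> linarith [ha1.1, ha1.2, ha2.1, ha2.2, ha3.1, ha3.2, ha4.1, ha4.2]
  have hsqa : |a| ^ 2 = a ^ 2 := sq_abs a
  have hsqb : |b| ^ 2 = b ^ 2 := sq_abs b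
  have hsqc : |c| ^ 2 = c ^ 2 := sq_abs c
  have ha : |a| * |a| ≤ Real.sqrt 2 / 2 * |a| := by
    apply mul_le_mul_of_nonneg_right _ hA
    linarith
  have hb : |b| * |b| ≤ Real.sqrt 2 / 2 * |b| := by
    apply mul_le_mul_of_nonneg_right _ hB
    linarith
  have hc : |c| * |c| ≤ Real.sqrt 2 / 2 * |c| := by
    apply mul_le_mul_of_nonneg_right _ hC
    linarith
  have hfin : 1 ≤ Real.sqrt 2 / 2 * (|a| + |b| + |c|) := by
    nlinarith
  have : Real.sqrt 2 / 2 * (|a| + |b| + |c|) < Real.sqrt 2 / 2 * Real.sqrt 2 := by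
    apply mul_lt_mul_of_pos_left _ (by positivity)
    linarith
  nlinarith

theorem inner_self_coords {v : E3} (hv : ‖v‖ = 1) : v 0 ^ 2 + v 1 ^ 2 + v 2 ^ 2 = 1 := by
  rw [← norm_sq_E3, hv]; norm_num

/-- Two-face bound with the same-side case included. -/
theorem two_faces' {v : E3} (hv : ‖v‖ = 1) {K : Set E3} (hK : Convex ℝ K) {A B C D : E3}
    (hA : A ∈ K) (hB : B ∈ K) (hC : C ∈ K) (hD : D ∈ K) :
    ENNReal.ofReal (|triple (B - A) (C - A) v - triple (B - A) (D - A) v| / 2) ≤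
      μHE[2] (prj v '' K) := by
  set lC := triple (B - A) (C - A) v with hlC
  set lD := triple (B - A) (D - A) v with hlD
  by_cases hopp : lC * lD ≤ 0
  · have h := two_faces hv hK hA hB hC hD hopp
    refine le_trans (ENNReal.ofReal_le_ofReal ?_) h
    have : |lC - lD| ≤ |lC| + |lD| := abs_sub lC lD
    linarith
  · push Not at hopp
    -- same side: one face alone suffices
    by_cases hle : |lC| ≤ |lD|
    · have h := one_face hv hK hA hB hD
      rw [← hlD] at h
      refine le_trans (ENNReal.ofReal_le_ofReal ?_) h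
      have : |lC - lD| ≤ |lD| := by
        rcases (mul_pos_iff.1 hopp) with ⟨h1, h2⟩ | ⟨h1, h2⟩
        · rw [abs_of_pos h1, abs_of_pos h2] at hle
          rw [abs_of_pos h2, abs_le]
          constructor <;> linarith
        · rw [abs_of_neg h1, abs_of_neg h2] at hle
          rw [abs_of_neg h2, abs_le]
          constructor <;> linarith
      linarith
    · push Not at hle
      have h := one_face hv hK hA hB hC
      rw [← hlC] at h
      refine le_trans (ENNReal.ofReal_le_ofReal ?_) h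
      have : |lC - lD| ≤ |lC| := by
        rcases (mul_pos_iff.1 hopp) with ⟨h1, h2⟩ | ⟨h1, h2⟩
        · rw [abs_of_pos h1, abs_of_pos h2] at hle
          rw [abs_of_pos h1, abs_le]
          constructor <;> linarith
        · rw [abs_of_neg h1, abs_of_neg h2] at hle
          rw [abs_of_neg h1, abs_le]
          constructor <;> linarith
      linarith

/-- The lower bound for all directions. -/
theorem minProj_ge {v : E3} (hv : ‖v‖ = 1) :
    ENNReal.ofReal (Real.sqrt 2) ≤ μHE[2] (prj v '' KT) := by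
  set m := (μHE[2] (prj v '' KT)) with hm
  by_cases htop : m = ⊤
  · rw [htop]; exact le_top
  have hs := sqrt2_pos
  have hs2 := sqrt2_sq
  have hconv : ∀ x : ℝ, ENNReal.ofReal x ≤ m → x ≤ m.toReal := by
    intro x hx
    exact ENNReal.ofReal_le_iff_le_toReal htop |>.1 hx
  have hU := inner_self_coords hv
  set v0 := v 0 with hv0
  set v1 := v 1 with hv1
  set v2 := v 2 with hv2
  set a := (v0 + v1) / Real.sqrt 2 with ha
  set b := (v0 - v1) / Real.sqrt 2 with hb
  have hab0 : Real.sqrt 2 * v0 = a + b := by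
    have h : a + b = 2 * v0 / Real.sqrt 2 := by simp only [ha, hb]; ring
    rw [h, eq_div_iff hs.ne']
    linear_combination v0 * hs2
  have hab1 : Real.sqrt 2 * v1 = a - b := by
    have h : a - b = 2 * v1 / Real.sqrt 2 := by simp only [ha, hb]; ring
    rw [h, eq_div_iff hs.ne']
    linear_combination v1 * hs2
  have habc : a ^ 2 + b ^ 2 + v2 ^ 2 = 1 := by
    simp only [ha, hb, div_pow, hs2]
    rw [← hU]
    ring
  have vals1 : triple ((!₂[-1, 0, 0] : E3) - !₂[1, 0, 0]) ((!₂[0, 1, Real.sqrt 2] : E3) - !₂[1, 0, 0]) v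
      = 2 * (a - b) - 2 * v2 := by
    rw [← hab1]
    simp [triple, ← hv1, ← hv2]
    ring
  have vals2 : triple ((!₂[-1, 0, 0] : E3) - !₂[1, 0, 0]) ((!₂[0, -1, Real.sqrt 2] : E3) - !₂[1, 0, 0]) v
      = 2 * (a - b) + 2 * v2 := by
    rw [← hab1]
    simp [triple, ← hv1, ← hv2]
    ring
  have vals3 : triple ((!₂[0, 1, Real.sqrt 2] : E3) - !₂[1, 0, 0]) ((!₂[0, -1, Real.sqrt 2] : E3) - !₂[1, 0, 0]) v
      = 2 * (a + b) + 2 * v2 := by
    rw [← hab0]
    simp [triple, ← hv0, ← hv1, ← hv2]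
    ring
  have vals4 : triple ((!₂[0, 1, Real.sqrt 2] : E3) - !₂[-1, 0, 0]) ((!₂[0, -1, Real.sqrt 2] : E3) - !₂[-1, 0, 0]) v
      = 2 * (a + b) - 2 * v2 := by
    rw [← hab0]
    simp [triple, ← hv0, ← hv1, ← hv2]
    ring
  have vals5 : triple ((!₂[0, 1, Real.sqrt 2] : E3) - !₂[1, 0, 0]) ((!₂[-1, 0, 0] : E3) - !₂[1, 0, 0]) v
      = -(2 * (a - b)) + 2 * v2 := by
    rw [← hab1]
    simp [triple, ← hv0, ← hv1, ← hv2]
    ring
  have vals6 : triple ((!₂[0, -1, Real.sqrt 2] : E3) - !₂[1, 0, 0]) ((!₂[-1, 0, 0] : E3) - !₂[1, 0, 0]) v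
      = -(2 * (a - b)) - 2 * v2 := by
    rw [← hab1]
    simp [triple, ← hv0, ← hv1, ← hv2]
    ring
  have vals7 : triple ((!₂[0, -1, Real.sqrt 2] : E3) - !₂[1, 0, 0]) ((!₂[0, 1, Real.sqrt 2] : E3) - !₂[1, 0, 0]) v
      = -(2 * (a + b)) - 2 * v2 := by
    rw [← hab0]
    simp [triple, ← hv0, ← hv1, ← hv2]
    ring
  -- faces
  have f1 : |a - b - v2| ≤ m.toReal := by
    have := hconv _ (one_face hv KT_convex vA_mem vB_mem vC_mem)
    rw [vals1] at this
    have e : |2 * (a - b) - 2 * v2| / 2 = |a - b - v2| := by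
      rw [show 2 * (a - b) - 2 * v2 = 2 * (a - b - v2) by ring, abs_mul]; simp
    rwa [e] at this
  have f2 : |a - b + v2| ≤ m.toReal := by
    have := hconv _ (one_face hv KT_convex vA_mem vB_mem vD_mem)
    rw [vals2] at this
    have e : |2 * (a - b) + 2 * v2| / 2 = |a - b + v2| := by
      rw [show 2 * (a - b) + 2 * v2 = 2 * (a - b + v2) by ring, abs_mul]; simp
    rwa [e] at this
  have f3 : |a + b + v2| ≤ m.toReal := by
    have := hconv _ (one_face hv KT_convex vA_mem vC_mem vD_mem)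
    rw [vals3] at this
    have e : |2 * (a + b) + 2 * v2| / 2 = |a + b + v2| := by
      rw [show 2 * (a + b) + 2 * v2 = 2 * (a + b + v2) by ring, abs_mul]; simp
    rwa [e] at this
  have f4 : |a + b - v2| ≤ m.toReal := by
    have := hconv _ (one_face hv KT_convex vB_mem vC_mem vD_mem)
    rw [vals4] at this
    have e : |2 * (a + b) - 2 * v2| / 2 = |a + b - v2| := by
      rw [show 2 * (a + b) - 2 * v2 = 2 * (a + b - v2) by ring, abs_mul]; simp
    rwa [e] at this
  -- pairs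
  have p1 : 2 * |v2| ≤ m.toReal := by
    have := hconv _ (two_faces' hv KT_convex vA_mem vB_mem vC_mem vD_mem)
    rw [vals1, vals2] at this
    have e : |2 * (a - b) - 2 * v2 - (2 * (a - b) + 2 * v2)| / 2 = 2 * |v2| := by
      rw [show 2 * (a - b) - 2 * v2 - (2 * (a - b) + 2 * v2) = 4 * (-v2) by ring, abs_mul, abs_neg]
      norm_num
      ring
    rwa [e] at this
  have p2 : 2 * |a| ≤ m.toReal := by
    have := hconv _ (two_faces' hv KT_convex vA_mem vC_mem vB_mem vD_mem)
    rw [vals5, vals3] at this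
    have e : |-(2 * (a - b)) + 2 * v2 - (2 * (a + b) + 2 * v2)| / 2 = 2 * |a| := by
      rw [show -(2 * (a - b)) + 2 * v2 - (2 * (a + b) + 2 * v2) = 4 * (-a) by ring, abs_mul, abs_neg]
      norm_num
      ring
    rwa [e] at this
  have p3 : 2 * |b| ≤ m.toReal := by
    have := hconv _ (two_faces' hv KT_convex vA_mem vD_mem vB_mem vC_mem)
    rw [vals6, vals7] at this
    have e : |-(2 * (a - b)) - 2 * v2 - (-(2 * (a + b)) - 2 * v2)| / 2 = 2 * |b| := by
      rw [show -(2 * (a - b)) - 2 * v2 - (-(2 * (a + b)) - 2 * v2) = 4 * b by ring, abs_mul]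
      norm_num
      ring
    rwa [e] at this
  have hfin := minproj_numeric a b v2 m.toReal habc f3 f4 f2 f1 p2 p3 p1
  exact (ENNReal.ofReal_le_iff_le_toReal htop).2 hfin

/-- The projection as a linear map. -/
noncomputable def prjL (v : E3) : E3 →ₗ[ℝ] E3 where
  toFun := prj v
  map_add' := prj_add v
  map_smul' := fun c x => prj_smul v x c

/-- The unit vector along the first axis. -/
noncomputable def e1 : E3 := !₂[1, 0, 0]

theorem norm_e1 : ‖e1‖ = 1 := by
  have h : ‖e1‖ ^ 2 = 1 := by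
    rw [norm_sq_E3]; simp [e1]
  have h0 := norm_nonneg e1
  nlinarith

theorem prj_e1_apply (a b c : ℝ) : prj e1 (!₂[a, b, c] : E3) = !₂[0, b, c] := by
  have h : inner ℝ (!₂[a, b, c] : E3) e1 = a := by
    rw [inner_E3]; simp [e1]
  simp only [prj, h]
  ext k
  fin_cases k <;> simp [e1]

/-- Upper bound for the projection along `e1`. -/
theorem minProj_e1_le : μHE[2] (prj e1 '' KT) ≤ ENNReal.ofReal (Real.sqrt 2) := by
  have hs2 := sqrt2_sq
  have hs := sqrt2_pos
  have h1 : μHE[2] (convexHull ℝ ({prj e1 !₂[1, 0, 0], prj e1 !₂[0, 1, Real.sqrt 2],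
      prj e1 !₂[0, -1, Real.sqrt 2]} : Set E3)) = ENNReal.ofReal (Real.sqrt 2) := by
    rw [area_prj_triangle norm_e1]
    congr 1
    have : triple ((!₂[0, 1, Real.sqrt 2] : E3) - !₂[1, 0, 0]) ((!₂[0, -1, Real.sqrt 2] : E3) - !₂[1, 0, 0]) e1
        = 2 * Real.sqrt 2 := by
      simp [triple, e1]
      ring
    rw [this, abs_of_pos (by positivity)]
    ring
  rw [← h1]
  apply measure_mono
  have himg : prj e1 '' KT = convexHull ℝ (prjL e1 '' ({!₂[1, 0, 0], !₂[-1, 0, 0],
      !₂[0, 1, Real.sqrt 2], !₂[0, -1, Real.sqrt 2]} : Set E3)) := by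
    rw [← LinearMap.image_convexHull]
    rfl
  rw [himg]
  apply convexHull_mono
  rintro _ ⟨x, hx, rfl⟩
  simp only [Set.mem_insert_iff, Set.mem_singleton_iff] at hx
  have hBA : prj e1 (!₂[-1, 0, 0] : E3) = prj e1 (!₂[1, 0, 0] : E3) := by
    rw [prj_e1_apply, prj_e1_apply]
  show prj e1 x ∈ _
  rcases hx with rfl | rfl | rfl | rfl
  · simp
  · rw [hBA]; simp
  · simp
  · simp

/-- Every bounded subset of a plane has finite area. -/
theorem exists_isometry_plane {v : E3} (hv : v ≠ 0) :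
    ∃ ι : E2 →ₗᵢ[ℝ] E3, ∀ x : E3, inner ℝ x v = 0 → x ∈ Set.range ι := by
  classical
  set W : Submodule ℝ E3 := (ℝ ∙ v)ᗮ with hW
  have hWfr : Module.finrank ℝ W = 2 := Submodule.finrank_orthogonal_span_singleton hv
  let e : W ≃ₗᵢ[ℝ] E2 := ((stdOrthonormalBasis ℝ W).reindex (finCongr hWfr)).repr
  refine ⟨W.subtypeₗᵢ.comp e.symm.toLinearIsometry, fun x hx => ?_⟩
  have hxW : x ∈ W := by
    rw [hW, Submodule.mem_orthogonal_singleton_iff_inner_right, real_inner_comm]
    exact hx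
  exact ⟨e ⟨x, hxW⟩, by simp⟩

theorem area_lt_top_of_bounded {v : E3} (hv : v ≠ 0) {B : Set E3} (hB : Bornology.IsBounded B)
    (hp : ∀ x ∈ B, inner ℝ x v = 0) : μHE[2] B < ⊤ := by
  obtain ⟨ι, hι⟩ := exists_isometry_plane hv
  have hBeq : B = ι '' (ι ⁻¹' B) := by
    rw [Set.image_preimage_eq_of_subset]
    intro x hx
    exact hι x (hp x hx)
  rw [hBeq, ι.isometry.euclideanHausdorffMeasure_image,
    EuclideanSpace.euclideanHausdorffMeasure_eq_volume]
  apply Bornology.IsBounded.measure_lt_top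
  obtain ⟨R, hR⟩ := hB.exists_norm_le
  refine (isBounded_iff_forall_norm_le).2 ⟨R, fun x hx => ?_⟩
  have := hR _ hx
  rwa [ι.norm_map] at this

theorem KT_compact : IsCompact KT := Set.Finite.isCompact_convexHull ℝ (Set.toFinite _)

theorem prj_continuous (v : E3) : Continuous (prj v) := by
  unfold prj
  fun_prop

theorem area_prj_KT_lt_top {v : E3} (hv : ‖v‖ = 1) : μHE[2] (prj v '' KT) < ⊤ := by
  have hv0 : v ≠ 0 := by
    intro h
    rw [h] at hv
    simp at hv
  apply area_lt_top_of_bounded hv0 ((KT_compact.image (prj_continuous v)).isBounded)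
  rintro _ ⟨x, _, rfl⟩
  exact inner_prj hv x

/-- The real version of the lower bound. -/
theorem minProj_toReal_ge {v : E3} (hv : ‖v‖ = 1) :
    Real.sqrt 2 ≤ (μHE[2] (prj v '' KT)).toReal :=
  (ENNReal.ofReal_le_iff_le_toReal (area_prj_KT_lt_top hv).ne).1 (minProj_ge hv)

/-- `μHE[2]` and `μH[2]`: the scalar. -/
noncomputable def scal : NNReal :=
  Measure.addHaarScalarFactor (volume : Measure (EuclideanSpace ℝ (Fin 2))) μH[(2 : ℕ)]

theorem scal_pos : 0 < (scal : ℝ) := by
  have : scal ≠ 0 := Measure.addHaarScalarFactor_volume_hausdorffMeasure_ne_zero 2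
  exact_mod_cast pos_iff_ne_zero.2 this

theorem toReal_HE (S : Set E3) :
    (μHE[2] S).toReal = (scal : ℝ) * (μH[(2 : ℝ)] S).toReal := by
  rw [Measure.euclideanHausdorffMeasure_def]
  simp only [Measure.smul_apply, ENNReal.smul_def, smul_eq_mul, ENNReal.toReal_mul, ENNReal.coe_toReal]
  simp only [Nat.cast_ofNat]
  rfl

theorem toReal_H (S : Set E3) :
    (μH[(2 : ℝ)] S).toReal = (μHE[2] S).toReal / (scal : ℝ) := by
  rw [toReal_HE, mul_div_cancel_left₀ _ scal_pos.ne']

/-- Padding a cover to any larger number of cylinders with a prescribed extra area. -/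
theorem pad_cover {m n : ℕ} (hmn : m + 1 ≤ n) (u p q r : Fin m → E3) (hu : ∀ i, ‖u i‖ = 1)
    (hin : ∀ i, inner ℝ (p i) (u i) = 0 ∧ inner ℝ (q i) (u i) = 0 ∧ inner ℝ (r i) (u i) = 0)
    (A : ℝ) (hA : 0 ≤ A) :
    ∃ (u' p' q' r' : Fin n → E3), (∀ i, ‖u' i‖ = 1) ∧
      (∀ i, inner ℝ (p' i) (u' i) = 0 ∧ inner ℝ (q' i) (u' i) = 0 ∧ inner ℝ (r' i) (u' i) = 0) ∧
      (⋃ i, {x : E3 | ∃ b ∈ convexHull ℝ ({p i, q i, r i} : Set E3), ∃ t : ℝ, x = b + t • u i}) ⊆
        (⋃ i, {x : E3 | ∃ b ∈ convexHull ℝ ({p' i, q' i, r' i} : Set E3), ∃ t : ℝ, x = b + t • u' i}) ∧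
      ∑ i, (μHE[2] (convexHull ℝ ({p' i, q' i, r' i} : Set E3))).toReal =
        ∑ i, (μHE[2] (convexHull ℝ ({p i, q i, r i} : Set E3))).toReal + A := by
  classical
  obtain ⟨k, rfl⟩ : ∃ k, n = m + (1 + k) := ⟨n - m - 1, by omega⟩
  let e : Fin (m + (1 + k)) ≃ Fin m ⊕ (Fin 1 ⊕ Fin k) :=
    ((finSumFinEquiv (m := m) (n := 1 + k)).symm).trans
      (Equiv.sumCongr (Equiv.refl _) (finSumFinEquiv (m := 1) (n := k)).symm)
  set s := Real.sqrt (2 * A) with hs
  have hs2 : s ^ 2 = 2 * A := Real.sq_sqrt (by positivity)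
  let u₀ : Fin m ⊕ (Fin 1 ⊕ Fin k) → E3 := Sum.elim u (fun _ => e1)
  let p₀ : Fin m ⊕ (Fin 1 ⊕ Fin k) → E3 := Sum.elim p (fun _ => 0)
  let q₀ : Fin m ⊕ (Fin 1 ⊕ Fin k) → E3 := Sum.elim q (Sum.elim (fun _ => !₂[0, s, 0]) (fun _ => 0))
  let r₀ : Fin m ⊕ (Fin 1 ⊕ Fin k) → E3 := Sum.elim r (Sum.elim (fun _ => !₂[0, 0, s]) (fun _ => 0))
  have hu₀ : ∀ w, ‖u₀ w‖ = 1 := by
    rintro (j | j)
    · exact hu j
    · exact norm_e1
  have hin₀ : ∀ w, inner ℝ (p₀ w) (u₀ w) = 0 ∧ inner ℝ (q₀ w) (u₀ w) = 0 ∧ inner ℝ (r₀ w) (u₀ w) = 0 := by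
    rintro (j | j | j)
    · exact hin j
    · refine ⟨by simp [p₀], ?_, ?_⟩
      · simp only [q₀, u₀, Sum.elim_inr, Sum.elim_inl]
        rw [inner_E3]; simp [e1]
      · simp only [r₀, u₀, Sum.elim_inr, Sum.elim_inl]
        rw [inner_E3]; simp [e1]
    · simp [p₀, q₀, r₀]
  refine ⟨fun i => u₀ (e i), fun i => p₀ (e i), fun i => q₀ (e i), fun i => r₀ (e i), ?_, ?_, ?_, ?_⟩
  · intro i
    exact hu₀ _
  · intro i
    exact hin₀ _
  · intro x hx
    obtain ⟨j, hj⟩ := Set.mem_iUnion.1 hx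
    refine Set.mem_iUnion.2 ⟨e.symm (Sum.inl j), ?_⟩
    simpa [u₀, p₀, q₀, r₀] using hj
  · have e0 : ∑ i, (μHE[2] (convexHull ℝ ({p₀ (e i), q₀ (e i), r₀ (e i)} : Set E3))).toReal =
        ∑ i, (μHE[2] (convexHull ℝ ({p₀ i, q₀ i, r₀ i} : Set E3))).toReal :=
      Equiv.sum_comp e (fun i => (μHE[2] (convexHull ℝ ({p₀ i, q₀ i, r₀ i} : Set E3))).toReal)
    rw [e0, Fintype.sum_sum_type, Fintype.sum_sum_type]
    congr 1
    have e2 : ∀ j : Fin k, (μHE[2] (convexHull ℝ ({p₀ (Sum.inr (Sum.inr j)), q₀ (Sum.inr (Sum.inr j)),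
        r₀ (Sum.inr (Sum.inr j))} : Set E3))).toReal = 0 := by
      intro j
      simp only [p₀, q₀, r₀, Sum.elim_inr]
      rw [area_triangle]
      simp [gram]
    have e3 : ∀ j : Fin 1, (μHE[2] (convexHull ℝ ({p₀ (Sum.inr (Sum.inl j)), q₀ (Sum.inr (Sum.inl j)),
        r₀ (Sum.inr (Sum.inl j))} : Set E3))).toReal = A := by
      intro j
      simp only [p₀, q₀, r₀, Sum.elim_inr, Sum.elim_inl]
      rw [area_triangle, ENNReal.toReal_ofReal (div_nonneg (gram_nonneg _ _) (by norm_num))]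
      have hg : gram ((!₂[0, s, 0] : E3) - 0) ((!₂[0, 0, s] : E3) - 0) = s ^ 2 := by
        rw [gram, norm_sq_E3, norm_sq_E3, inner_E3]
        simp
        rw [show (s ^ 2 * s ^ 2 : ℝ) = (s ^ 2) ^ 2 by ring, Real.sqrt_sq (by positivity)]
      rw [hg, hs2]
      ring
    simp only [e2, e3]
    simp

end Crest.Agent.Lib.Tetra
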